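import Vale.Agent.Lib.P034.Defs

open Finset
open scoped Pointwise

namespace Vale.Agent.Lib.P034

variable {X : Type} [Fintype X] [DecidableEq X]
variable {Γ : Type} [Group Γ] [Fintype Γ] [MulAction Γ X]

open Classical in
/-- The group elements moving `K` into `A`. -/
noncomputable def Om (Γ : Type) [Group Γ] [Fintype Γ] [MulAction Γ X] (A K : Finset X) : Finset Γ :=
  univ.filter (fun γ => γ • K ⊆ A)

lemma mem_Om {A K : Finset X} {γ : Γ} : γ ∈ Om Γ A K ↔ γ • K ⊆ A := by
  classical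
  simp [Om]

lemma Om_empty (A : Finset X) : Om Γ A ∅ = univ := by
  classical
  ext γ
  simp [mem_Om]

lemma mem_Om_union {A K F : Finset X} {γ δ : Γ} :
    γ ∈ Om Γ A (K ∪ δ • F) ↔ γ ∈ Om Γ A K ∧ γ * δ ∈ Om Γ A F := by
  simp only [mem_Om, smul_finset_union, union_subset_iff, mul_smul]

/-- `m`-count: number of `φ ∈ Om F` with `x ∈ φ • F`. -/
noncomputable def mm (Γ : Type) [Group Γ] [Fintype Γ] [MulAction Γ X] (A F : Finset X) (x : X) : ℕ :=
  by classical exact ((Om Γ A F).filter (fun φ => x ∈ φ • F)).card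

lemma mm_le_of_stab {A F : Finset X} {x : X} {s : Γ} (hs : s • A = A) :
    mm Γ A F x ≤ mm Γ A F (s • x) := by
  classical
  unfold mm
  refine Finset.card_le_card_of_injOn (fun φ => s * φ) ?_ ?_
  · intro φ hφ
    simp only [coe_filter, Set.mem_setOf_eq, mem_Om] at hφ ⊢
    refine ⟨?_, ?_⟩
    · rw [mul_smul, ← hs]
      exact Finset.smul_finset_subset_smul_finset hφ.1
    · rw [mul_smul]
      exact Finset.smul_mem_smul_finset hφ.2
  · intro a _ b _ hab
    exact mul_left_cancel hab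

lemma sum_mm {A F : Finset X} : ∑ y ∈ A, mm Γ A F y = F.card * (Om Γ A F).card := by
  classical
  unfold mm
  have h : ∀ y ∈ A, ((Om Γ A F).filter (fun φ => y ∈ φ • F)).card
      = ∑ φ ∈ Om Γ A F, if y ∈ φ • F then 1 else 0 := by
    intro y _
    rw [Finset.card_filter]
  rw [Finset.sum_congr rfl h, Finset.sum_comm]
  have h2 : ∀ φ ∈ Om Γ A F, (∑ y ∈ A, if y ∈ φ • F then 1 else 0) = F.card := by
    intro φ hφ
    have hsub := mem_Om.1 hφ
    rw [← Finset.card_filter]
    have : A.filter (fun y => y ∈ φ • F) = φ • F := by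
      ext y
      simp only [mem_filter]
      exact ⟨fun h => h.2, fun h => ⟨hsub h, h⟩⟩
    rw [this, Finset.card_smul_finset]
  rw [Finset.sum_congr rfl h2, Finset.sum_const, smul_eq_mul, mul_comm]

/-- The flatness bound from large stabilizer orbits. -/
lemma flat_of_orbits {A : Finset X} {Lam : ℕ} (h : OrbitsLarge Γ A Lam) (F : Finset X) {x : X}
    (hx : x ∈ A) : mm Γ A F x * A.card ≤ Lam * F.card * (Om Γ A F).card := by
  classical
  have h1 := h x hx
  set O := A.filter (fun y => ∃ s : Γ, s • A = A ∧ s • x = y) with hO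
  have h2 : O.card * mm Γ A F x ≤ ∑ y ∈ O, mm Γ A F y := by
    rw [← smul_eq_mul, ← Finset.sum_const]
    refine Finset.sum_le_sum ?_
    intro y hy
    obtain ⟨s, hs, rfl⟩ := (mem_filter.1 hy).2
    exact mm_le_of_stab hs
  have h3 : ∑ y ∈ O, mm Γ A F y ≤ ∑ y ∈ A, mm Γ A F y :=
    Finset.sum_le_sum_of_subset (Finset.filter_subset _ _)
  rw [sum_mm] at h3
  calc mm Γ A F x * A.card ≤ mm Γ A F x * (Lam * O.card) := Nat.mul_le_mul_left _ h1
    _ = Lam * (O.card * mm Γ A F x) := by ring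
    _ ≤ Lam * (F.card * (Om Γ A F).card) := Nat.mul_le_mul_left _ (h2.trans h3)
    _ = Lam * F.card * (Om Γ A F).card := by ring

lemma flagTransitive_orbitsLarge {A : Finset X} (h : FlagTransitive Γ A) : OrbitsLarge Γ A 1 := by
  classical
  intro x hx
  rw [one_mul]
  refine Finset.card_le_card ?_
  intro y hy
  exact mem_filter.2 ⟨hy, h x hx y hy⟩

/-- Markov: at least half of `φ ∈ Om F` overlap a small `T ⊆ A` in at most half of `F`. -/
lemma markov {A F T : Finset X} {Lam : ℕ} (h : OrbitsLarge Γ A Lam) (hT : T ⊆ A)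
    (hA : 0 < A.card) (hF : 0 < F.card) (hs : 4 * Lam * T.card ≤ A.card) :
    (Om Γ A F).card ≤ 2 * ((Om Γ A F).filter (fun φ => 2 * ((φ • F) ∩ T).card ≤ F.card)).card := by
  classical
  set Φ := Om Γ A F with hΦ
  have hsum : ∑ φ ∈ Φ, ((φ • F) ∩ T).card = ∑ x ∈ T, mm Γ A F x := by
    unfold mm
    have h1 : ∀ x ∈ T, (Φ.filter (fun φ => x ∈ φ • F)).card
        = ∑ φ ∈ Φ, if x ∈ φ • F then 1 else 0 := fun x _ => by rw [Finset.card_filter]
    rw [Finset.sum_congr rfl h1, Finset.sum_comm]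
    refine Finset.sum_congr rfl ?_
    intro φ _
    rw [← Finset.card_filter]
    congr 1
    ext y
    simp [and_comm]
  set Sm := ∑ φ ∈ Φ, ((φ • F) ∩ T).card with hSm
  have h4 : 4 * Sm ≤ F.card * Φ.card := by
    have h5 : Sm * A.card ≤ T.card * (Lam * F.card * Φ.card) := by
      rw [hsum, Finset.sum_mul, ← smul_eq_mul, ← Finset.sum_const]
      refine Finset.sum_le_sum ?_
      intro x hx
      exact flat_of_orbits h F (hT hx)
    have h6 : 4 * Sm * A.card ≤ (F.card * Φ.card) * A.card := by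
      calc 4 * Sm * A.card = 4 * (Sm * A.card) := by ring
        _ ≤ 4 * (T.card * (Lam * F.card * Φ.card)) := Nat.mul_le_mul_left _ h5
        _ = (4 * Lam * T.card) * (F.card * Φ.card) := by ring
        _ ≤ A.card * (F.card * Φ.card) := Nat.mul_le_mul_right _ hs
        _ = (F.card * Φ.card) * A.card := by ring
    exact Nat.le_of_mul_le_mul_right h6 hA
  set Bd := Φ.filter (fun φ => ¬ 2 * ((φ • F) ∩ T).card ≤ F.card) with hBd
  have h7 : Bd.card * F.card ≤ 2 * Sm := by
    have h8 : ∑ φ ∈ Bd, F.card ≤ ∑ φ ∈ Bd, 2 * ((φ • F) ∩ T).card := by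
      refine Finset.sum_le_sum ?_
      intro φ hφ
      have := (mem_filter.1 hφ).2
      omega
    rw [Finset.sum_const, smul_eq_mul, ← Finset.mul_sum] at h8
    have h9 : ∑ φ ∈ Bd, ((φ • F) ∩ T).card ≤ Sm :=
      Finset.sum_le_sum_of_subset (Finset.filter_subset _ _)
    omega
  have h10 : 2 * Bd.card ≤ Φ.card := by
    have h11 : (2 * Bd.card) * F.card ≤ Φ.card * F.card := by
      have : 2 * (Bd.card * F.card) ≤ F.card * Φ.card := by omega
      calc (2 * Bd.card) * F.card = 2 * (Bd.card * F.card) := by ring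
        _ ≤ F.card * Φ.card := this
        _ = Φ.card * F.card := by ring
    exact Nat.le_of_mul_le_mul_right h11 hF
  have h12 : (Φ.filter (fun φ => 2 * ((φ • F) ∩ T).card ≤ F.card)).card + Bd.card = Φ.card := by
    rw [hBd]
    exact Finset.card_filter_add_card_filter_not _
  omega

end Vale.Agent.Lib.P034
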