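import Vale.Agent.Lib.P034.Core1

open Finset
open scoped Pointwise

namespace Vale.Agent.Lib.P034

variable {X : Type} [Fintype X] [DecidableEq X]
variable {Γ : Type} [Group Γ] [Fintype Γ] [MulAction Γ X]

open Classical in
/-- The good translates of `F` relative to `K`. -/
noncomputable def DD (Γ : Type) [Group Γ] [Fintype Γ] [MulAction Γ X] (K F : Finset X) : Finset Γ :=
  univ.filter (fun δ => 2 * ((δ • F) ∩ K).card ≤ F.card)

lemma mem_DD {K F : Finset X} {δ : Γ} : δ ∈ DD Γ K F ↔ 2 * ((δ • F) ∩ K).card ≤ F.card := by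
  classical
  simp [DD]

/-- Double counting of pairs. -/
lemma pairs {A F K : Finset X} {Lam : ℕ} (h : OrbitsLarge Γ A Lam)
    (hA : 0 < A.card) (hF : 0 < F.card) (hs : 4 * Lam * K.card ≤ A.card) :
    (Om Γ A K).card * (Om Γ A F).card ≤ 2 * ∑ δ ∈ DD Γ K F, (Om Γ A (K ∪ δ • F)).card := by
  classical
  have h1 : ∀ δ ∈ DD Γ K F, (Om Γ A (K ∪ δ • F)).card
      = ∑ γ ∈ Om Γ A K, if γ * δ ∈ Om Γ A F then 1 else 0 := by
    intro δ _
    rw [← Finset.card_filter]
    congr 1
    ext γ
    simp only [mem_Om_union, mem_filter]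
  rw [Finset.sum_congr rfl h1, Finset.sum_comm, Finset.mul_sum]
  have h2 : ∀ γ ∈ Om Γ A K, (Om Γ A F).card
      ≤ 2 * ∑ δ ∈ DD Γ K F, if γ * δ ∈ Om Γ A F then 1 else 0 := by
    intro γ hγ
    have hsub := mem_Om.1 hγ
    have hm := markov (F := F) (T := γ • K) h hsub hA hF (by rwa [Finset.card_smul_finset])
    refine hm.trans (Nat.mul_le_mul_left _ ?_)
    rw [← Finset.card_filter]
    refine Finset.card_le_card_of_injOn (fun φ => γ⁻¹ * φ) ?_ ?_
    · intro φ hφ
      simp only [coe_filter, Set.mem_setOf_eq] at hφ ⊢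
      refine ⟨mem_DD.2 ?_, by simpa using hφ.1⟩
      have h3 : ((γ⁻¹ * φ) • F ∩ K) = γ⁻¹ • ((φ • F) ∩ (γ • K)) := by
        rw [Finset.smul_finset_inter, mul_smul, inv_smul_smul]
      rw [h3, Finset.card_smul_finset]
      exact hφ.2
    · intro a _ b _ hab
      exact mul_left_cancel hab
  calc (Om Γ A K).card * (Om Γ A F).card = ∑ γ ∈ Om Γ A K, (Om Γ A F).card := by
        rw [Finset.sum_const, smul_eq_mul]
    _ ≤ _ := Finset.sum_le_sum h2

/-- Overlap pattern. -/
noncomputable def pat (K F : Finset X) (δ : Γ) : Finset X :=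
  by classical exact F.filter (fun x => δ • x ∈ K)

lemma card_pat (K F : Finset X) (δ : Γ) : (pat K F δ).card = ((δ • F) ∩ K).card := by
  classical
  unfold pat
  have : (δ • F) ∩ K = δ • (F.filter (fun x => δ • x ∈ K)) := by
    ext y
    simp only [mem_inter, Finset.mem_smul_finset, mem_filter]
    constructor
    · rintro ⟨⟨x, hx, rfl⟩, hy⟩
      exact ⟨x, ⟨hx, hy⟩, rfl⟩
    · rintro ⟨x, ⟨hx, hy⟩, rfl⟩
      exact ⟨⟨x, hx, rfl⟩, hy⟩
  rw [this, Finset.card_smul_finset]

lemma card_union_pat (K F : Finset X) (δ : Γ) :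
    (K ∪ δ • F).card + (pat K F δ).card = K.card + F.card := by
  classical
  rw [card_pat, Finset.inter_comm, Finset.card_union_add_card_inter, Finset.card_smul_finset]

/-- The weight sum bound. -/
lemma weights {A F K : Finset X} {q B : ℝ} (hq : 0 < q) (hB : 1 ≤ B) {γ0 : Γ}
    (hγ0 : γ0 ∈ Om Γ A K)
    (IH : ∀ E : Finset X, E ⊆ F → 2 * E.card ≤ F.card →
      ((Om Γ A E).card : ℝ) ≤ (Fintype.card Γ : ℝ) * (B ^ 2 * q) ^ E.card) :
    ∑ δ ∈ DD Γ K F, q ^ (K ∪ δ • F).card
      ≤ 2 ^ F.card * ((Fintype.card Γ : ℝ) * B ^ F.card * q ^ (K.card + F.card)) := by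
  classical
  have hB0 : (0 : ℝ) < B := by linarith
  set P := F.powerset.filter (fun E => 2 * E.card ≤ F.card) with hP
  have hmaps : ∀ δ ∈ DD Γ K F, pat K F δ ∈ P := by
    intro δ hδ
    refine mem_filter.2 ⟨?_, ?_⟩
    · rw [mem_powerset]
      unfold pat
      exact Finset.filter_subset _ _
    · rw [card_pat]
      exact mem_DD.1 hδ
  have h1 : ∑ δ ∈ DD Γ K F, q ^ (K ∪ δ • F).card
      = ∑ E ∈ P, ∑ δ ∈ (DD Γ K F).filter (fun δ => pat K F δ = E), q ^ (K ∪ δ • F).card :=
    (Finset.sum_fiberwise_of_maps_to hmaps _).symm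
  rw [h1]
  have h2 : ∀ E ∈ P, ∑ δ ∈ (DD Γ K F).filter (fun δ => pat K F δ = E), q ^ (K ∪ δ • F).card
      ≤ (Fintype.card Γ : ℝ) * B ^ F.card * q ^ (K.card + F.card) := by
    intro E hE
    have hE1 := mem_filter.1 hE
    have hEsub : E ⊆ F := mem_powerset.1 hE1.1
    have hval : ∀ δ ∈ (DD Γ K F).filter (fun δ => pat K F δ = E),
        q ^ (K ∪ δ • F).card = q ^ (K.card + F.card) / q ^ E.card := by
      intro δ hδ
      have hpat := (mem_filter.1 hδ).2
      have hc := card_union_pat K F δ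
      rw [hpat] at hc
      rw [← hc, pow_add, mul_div_assoc, div_self (pow_ne_zero _ hq.ne'), mul_one]
    rw [Finset.sum_congr rfl hval, Finset.sum_const, nsmul_eq_mul]
    have hcount : (((DD Γ K F).filter (fun δ => pat K F δ = E)).card : ℝ) ≤ (Om Γ A E).card := by
      norm_cast
      refine Finset.card_le_card_of_injOn (fun δ => γ0 * δ) ?_ ?_
      · intro δ hδ
        have hδ' := Finset.mem_coe.1 hδ
        have hpat := (mem_filter.1 hδ').2
        refine Finset.mem_coe.2 (mem_Om.2 ?_)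
        rw [mul_smul]
        intro y hy
        obtain ⟨x, hx, rfl⟩ := Finset.mem_smul_finset.1 hy
        obtain ⟨z, hz, rfl⟩ := Finset.mem_smul_finset.1 hx
        rw [← hpat] at hz
        unfold pat at hz
        have hz2 := (mem_filter.1 hz).2
        exact mem_Om.1 hγ0 (Finset.smul_mem_smul_finset hz2)
      · intro a _ b _ hab
        exact mul_left_cancel hab
    have hIH := IH E hEsub hE1.2
    have hqE : 0 < q ^ E.card := pow_pos hq _
    have hBpow : B ^ (2 * E.card) ≤ B ^ F.card := pow_le_pow_right₀ hB hE1.2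
    calc (((DD Γ K F).filter (fun δ => pat K F δ = E)).card : ℝ)
          * (q ^ (K.card + F.card) / q ^ E.card)
        ≤ ((Fintype.card Γ : ℝ) * (B ^ 2 * q) ^ E.card) * (q ^ (K.card + F.card) / q ^ E.card) := by
          refine mul_le_mul_of_nonneg_right (hcount.trans hIH) ?_
          positivity
      _ = (Fintype.card Γ : ℝ) * B ^ (2 * E.card) * q ^ (K.card + F.card) := by
          rw [mul_pow, ← pow_mul]
          field_simp
      _ ≤ (Fintype.card Γ : ℝ) * B ^ F.card * q ^ (K.card + F.card) := by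
          have : 0 ≤ (Fintype.card Γ : ℝ) := by positivity
          have h3 : 0 < q ^ (K.card + F.card) := pow_pos hq _
          gcongr
  refine (Finset.sum_le_sum h2).trans ?_
  rw [Finset.sum_const, nsmul_eq_mul]
  refine mul_le_mul_of_nonneg_right ?_ (by positivity)
  have h3 : P.card ≤ F.powerset.card := Finset.card_filter_le _ _
  rw [Finset.card_powerset] at h3
  exact_mod_cast h3

end Vale.Agent.Lib.P034
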