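import Vale.Agent.Lib.P034.Core2

open Finset
open scoped Pointwise

namespace Vale.Agent.Lib.P034

variable {X : Type} [Fintype X] [DecidableEq X]
variable {Γ : Type} [Group Γ] [Fintype Γ] [MulAction Γ X]

/-- The normalized count. -/
noncomputable def rr (Γ : Type) [Group Γ] [Fintype Γ] [MulAction Γ X] (q : ℝ) (A K : Finset X) : ℝ :=
  ((Om Γ A K).card : ℝ) / q ^ K.card

/-- The gain per step. -/
noncomputable def TT (Γ : Type) [Group Γ] [Fintype Γ] [MulAction Γ X] (q B : ℝ) (A F : Finset X) : ℝ :=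
  ((Om Γ A F).card : ℝ) / (2 ^ (F.card + 1) * (Fintype.card Γ : ℝ) * B ^ F.card * q ^ F.card)

lemma step {A F K : Finset X} {Lam : ℕ} {q B : ℝ} (h : OrbitsLarge Γ A Lam)
    (hA : 0 < A.card) (hF : 0 < F.card) (hs : 4 * Lam * K.card ≤ A.card)
    (hq : 0 < q) (hB : 1 ≤ B) (hK : (Om Γ A K).Nonempty) (hFne : (Om Γ A F).Nonempty)
    (IH : ∀ E : Finset X, E ⊆ F → 2 * E.card ≤ F.card →
      ((Om Γ A E).card : ℝ) ≤ (Fintype.card Γ : ℝ) * (B ^ 2 * q) ^ E.card) :
    ∃ δ : Γ, rr Γ q A K * TT Γ q B A F ≤ rr Γ q A (K ∪ δ • F) := by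
  classical
  obtain ⟨γ0, hγ0⟩ := hK
  have hB0 : (0 : ℝ) < B := by linarith
  have hG : (0 : ℝ) < (Fintype.card Γ : ℝ) := by
    exact_mod_cast Fintype.card_pos_iff.2 ⟨γ0⟩
  have hOK : (0 : ℝ) < ((Om Γ A K).card : ℝ) := by
    exact_mod_cast Finset.card_pos.2 ⟨γ0, hγ0⟩
  have hOF : (0 : ℝ) < ((Om Γ A F).card : ℝ) := by
    exact_mod_cast Finset.card_pos.2 hFne
  by_contra hcon
  simp only [not_exists, not_le] at hcon
  set t := rr Γ q A K * TT Γ q B A F with ht
  have htpos : 0 < t := by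
    rw [ht]
    unfold rr TT
    positivity
  have hlt : ∀ δ ∈ DD Γ K F, ((Om Γ A (K ∪ δ • F)).card : ℝ) < t * q ^ (K ∪ δ • F).card := by
    intro δ _
    have h1 := hcon δ
    unfold rr at h1
    rw [div_lt_iff₀ (pow_pos hq _)] at h1
    exact h1
  have hp := pairs (A := A) (F := F) (K := K) (Γ := Γ) h hA hF hs
  have hp' : ((Om Γ A K).card : ℝ) * ((Om Γ A F).card : ℝ)
      ≤ 2 * ∑ δ ∈ DD Γ K F, ((Om Γ A (K ∪ δ • F)).card : ℝ) := by
    exact_mod_cast hp
  have hw := weights (Γ := Γ) (A := A) (F := F) (K := K) hq hB hγ0 IH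
  have hsum : ∑ δ ∈ DD Γ K F, ((Om Γ A (K ∪ δ • F)).card : ℝ)
      ≤ t * ∑ δ ∈ DD Γ K F, q ^ (K ∪ δ • F).card := by
    rw [Finset.mul_sum]
    exact Finset.sum_le_sum (fun δ hδ => (hlt δ hδ).le)
  have hne : (DD Γ K F).Nonempty := by
    by_contra hemp
    rw [Finset.not_nonempty_iff_eq_empty] at hemp
    rw [hemp, Finset.sum_empty] at hp'
    have : 0 < ((Om Γ A K).card : ℝ) * ((Om Γ A F).card : ℝ) := by positivity
    linarith
  have hsumlt : ∑ δ ∈ DD Γ K F, ((Om Γ A (K ∪ δ • F)).card : ℝ)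
      < t * ∑ δ ∈ DD Γ K F, q ^ (K ∪ δ • F).card := by
    rw [Finset.mul_sum]
    exact Finset.sum_lt_sum_of_nonempty hne hlt
  have hfinal : ((Om Γ A K).card : ℝ) * ((Om Γ A F).card : ℝ)
      = 2 * (t * (2 ^ F.card * ((Fintype.card Γ : ℝ) * B ^ F.card * q ^ (K.card + F.card)))) := by
    rw [ht]
    unfold rr TT
    rw [pow_add, pow_succ]
    field_simp
    try ring
  have h5 : t * ∑ δ ∈ DD Γ K F, q ^ (K ∪ δ • F).card
      ≤ t * (2 ^ F.card * ((Fintype.card Γ : ℝ) * B ^ F.card * q ^ (K.card + F.card))) :=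
    mul_le_mul_of_nonneg_left hw htpos.le
  linarith

/-- The final bound from the hypothesis on the cost of the orbit of `K`. -/
lemma rr_le {A K : Finset X} {q : ℝ} (hq : 0 < q) (hK : (Om Γ A K).Nonempty)
    (Hyp : 1 / 2 < (((univ : Finset Γ).image (fun γ => γ • K)).card : ℝ) * q ^ K.card) :
    rr Γ q A K ≤ 2 ^ (A.card + 1) * (Fintype.card Γ : ℝ) := by
  classical
  set S := (univ : Finset Γ).filter (fun γ => γ • K = K) with hS
  set O := (univ : Finset Γ).image (fun γ => γ • K) with hO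
  -- each fibre of `γ ↦ γ • K` has exactly the size of the stabilizer
  have hfib : ∀ γ1 : Γ, ((univ : Finset Γ).filter (fun γ => γ • K = γ1 • K)).card = S.card := by
    intro γ1
    refine Finset.card_bij' (fun γ _ => γ1⁻¹ * γ) (fun γ _ => γ1 * γ) ?_ ?_ ?_ ?_
    · intro γ hγ
      have := (mem_filter.1 hγ).2
      refine mem_filter.2 ⟨mem_univ _, ?_⟩
      rw [mul_smul, this, inv_smul_smul]
    · intro γ hγ
      have := (mem_filter.1 hγ).2
      refine mem_filter.2 ⟨mem_univ _, ?_⟩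
      rw [mul_smul, this]
    · intro γ _
      simp
    · intro γ _
      simp
  have hcardG : O.card * S.card = Fintype.card Γ := by
    have h1 : (univ : Finset Γ).card = ∑ b ∈ O, ((univ : Finset Γ).filter (fun γ => γ • K = b)).card :=
      Finset.card_eq_sum_card_image _ _
    have h2 : ∀ b ∈ O, ((univ : Finset Γ).filter (fun γ => γ • K = b)).card = S.card := by
      intro b hb
      obtain ⟨γ1, _, rfl⟩ := mem_image.1 hb
      exact hfib γ1
    rw [Finset.sum_congr rfl h2, Finset.sum_const, smul_eq_mul, Finset.card_univ] at h1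
    exact h1.symm
  have hOm : (Om Γ A K).card ≤ S.card * A.powerset.card := by
    refine Finset.card_le_mul_card_image_of_maps_to (f := fun γ => γ • K) ?_ _ ?_
    · intro γ hγ
      exact mem_powerset.2 (mem_Om.1 hγ)
    · intro K' _
      by_cases hne : ((Om Γ A K).filter (fun γ => γ • K = K')).Nonempty
      · obtain ⟨γ1, hγ1⟩ := hne
        have h1 := (mem_filter.1 hγ1).2
        rw [← hfib γ1, ← h1]
        refine Finset.card_le_card ?_
        intro γ hγ
        exact mem_filter.2 ⟨mem_univ _, (mem_filter.1 hγ).2⟩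
      · rw [Finset.not_nonempty_iff_eq_empty] at hne
        rw [hne]
        simp
  rw [Finset.card_powerset] at hOm
  have hqK : 0 < q ^ K.card := pow_pos hq _
  have h3 : ((Om Γ A K).card : ℝ) ≤ (S.card : ℝ) * 2 ^ A.card := by exact_mod_cast hOm
  have h4 : ((O.card : ℝ)) * (S.card : ℝ) = (Fintype.card Γ : ℝ) := by exact_mod_cast hcardG
  have hS0 : (0 : ℝ) ≤ (S.card : ℝ) := by positivity
  unfold rr
  rw [div_le_iff₀ hqK]
  calc ((Om Γ A K).card : ℝ) ≤ (S.card : ℝ) * 2 ^ A.card := h3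
    _ = (S.card : ℝ) * 2 ^ A.card * 1 := by ring
    _ ≤ (S.card : ℝ) * 2 ^ A.card * (2 * ((O.card : ℝ) * q ^ K.card)) := by
        refine mul_le_mul_of_nonneg_left ?_ (by positivity)
        linarith
    _ = 2 ^ (A.card + 1) * ((O.card : ℝ) * (S.card : ℝ)) * q ^ K.card := by
        rw [pow_succ]
        ring
    _ = 2 ^ (A.card + 1) * (Fintype.card Γ : ℝ) * q ^ K.card := by rw [h4]

/-- The chain. -/
lemma chain {A F : Finset X} {Lam M : ℕ} {q B : ℝ} (h : OrbitsLarge Γ A Lam)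
    (hA : 0 < A.card) (hF : 0 < F.card) (hM : 4 * Lam * ((M - 1) * F.card) ≤ A.card)
    (hq : 0 < q) (hB : 1 ≤ B) (hFne : (Om Γ A F).Nonempty) (hG : 0 < Fintype.card Γ)
    (IH : ∀ E : Finset X, E ⊆ F → 2 * E.card ≤ F.card →
      ((Om Γ A E).card : ℝ) ≤ (Fintype.card Γ : ℝ) * (B ^ 2 * q) ^ E.card) :
    ∀ i, i ≤ M → ∃ K : Finset X, K.card ≤ i * F.card ∧ (Om Γ A K).Nonempty ∧
      (Fintype.card Γ : ℝ) * TT Γ q B A F ^ i ≤ rr Γ q A K := by
  classical
  have hG' : (0 : ℝ) < (Fintype.card Γ : ℝ) := by exact_mod_cast hG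
  have hB0 : (0 : ℝ) < B := by linarith
  have hT : 0 < TT Γ q B A F := by
    unfold TT
    have hOF : (0 : ℝ) < ((Om Γ A F).card : ℝ) := by exact_mod_cast Finset.card_pos.2 hFne
    positivity
  intro i
  induction i with
  | zero =>
    intro _
    refine ⟨∅, by simp, ?_, ?_⟩
    · rw [Om_empty]
      exact Fintype.card_pos_iff.1 hG |>.elim (fun γ => ⟨γ, mem_univ γ⟩)
    · unfold rr
      rw [Om_empty]
      simp
  | succ i ih =>
    intro hi
    obtain ⟨K, hK, hKne, hKr⟩ := ih (by omega)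
    have hs : 4 * Lam * K.card ≤ A.card := by
      have h1 : K.card ≤ (M - 1) * F.card :=
        hK.trans (Nat.mul_le_mul_right _ (by omega))
      exact (Nat.mul_le_mul_left _ h1).trans hM
    obtain ⟨δ, hδ⟩ := step h hA hF hs hq hB hKne hFne IH
    refine ⟨K ∪ δ • F, ?_, ?_, ?_⟩
    · refine (Finset.card_union_le _ _).trans ?_
      rw [Finset.card_smul_finset]
      calc K.card + F.card ≤ i * F.card + F.card := by omega
        _ = (i + 1) * F.card := by ring
    · have hpos : 0 < rr Γ q A (K ∪ δ • F) := by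
        refine lt_of_lt_of_le ?_ hδ
        refine mul_pos (lt_of_lt_of_le (by positivity) hKr) hT
      by_contra hemp
      rw [Finset.not_nonempty_iff_eq_empty] at hemp
      unfold rr at hpos
      rw [hemp] at hpos
      simp at hpos
    · calc (Fintype.card Γ : ℝ) * TT Γ q B A F ^ (i + 1)
          = ((Fintype.card Γ : ℝ) * TT Γ q B A F ^ i) * TT Γ q B A F := by ring
        _ ≤ rr Γ q A K * TT Γ q B A F := mul_le_mul_of_nonneg_right hKr hT.le
        _ ≤ _ := hδ

end Vale.Agent.Lib.P034
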