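import Vale.Agent.Lib.P034.Core3

open Finset
open scoped Pointwise

namespace Vale.Agent.Lib.P034

variable {X : Type} [Fintype X] [DecidableEq X]
variable {Γ : Type} [Group Γ] [Fintype Γ] [MulAction Γ X]

/-- The main counting bound: for `q` below the orbit threshold of `A`, the uniform measure on the
translates of `A` is `K q`-spread. -/
lemma main_bound {A : Finset X} {Lam : ℕ} {q : ℝ} (h : OrbitsLarge Γ A Lam) (hA : A.Nonempty)
    (hq : 0 < q)
    (Hyp : ∀ K : Finset X, (Om Γ A K).Nonempty →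
      1 / 2 < (((univ : Finset Γ).image (fun γ => γ • K)).card : ℝ) * q ^ K.card) :
    ∀ F : Finset X, ((Om Γ A F).card : ℝ)
      ≤ (Fintype.card Γ : ℝ) * (((2 : ℝ) ^ (4 * Lam + 2)) ^ 2 * q) ^ F.card := by
  classical
  have hG : 0 < Fintype.card Γ := Fintype.card_pos
  have hG' : (0 : ℝ) < (Fintype.card Γ : ℝ) := by exact_mod_cast hG
  have hAc : 0 < A.card := Finset.card_pos.2 hA
  have hLam : 0 < Lam := by
    obtain ⟨x, hx⟩ := hA
    have := h x hx
    by_contra h0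
    have h1 : Lam = 0 := by omega
    rw [h1] at this
    omega
  set B : ℝ := (2 : ℝ) ^ (4 * Lam + 2) with hBdef
  have hB : 1 ≤ B := one_le_pow₀ (by norm_num)
  have hB0 : 0 < B := by linarith
  intro F
  induction' hn : F.card using Nat.strong_induction_on with n ih generalizing F
  by_cases he : F.card = 0
  · have hF0 : F = ∅ := Finset.card_eq_zero.1 he
    subst hF0
    rw [Om_empty]
    simp at hn
    subst hn
    simp
  have hF : 0 < F.card := by omega
  by_cases hOm : (Om Γ A F).Nonempty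
  swap
  · rw [Finset.not_nonempty_iff_eq_empty] at hOm
    rw [hOm]
    simp only [card_empty, Nat.cast_zero]
    positivity
  rw [← hn]
  have IH : ∀ E : Finset X, E ⊆ F → 2 * E.card ≤ F.card →
      ((Om Γ A E).card : ℝ) ≤ (Fintype.card Γ : ℝ) * (B ^ 2 * q) ^ E.card := by
    intro E _ hE
    exact ih E.card (by omega) E rfl
  set e := F.card with he'
  set d := A.card / (4 * Lam * e) with hd
  set M := d + 1 with hM
  have hden : 0 < 4 * Lam * e := by positivity
  have hM1 : 4 * Lam * ((M - 1) * e) ≤ A.card := by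
    have h1 : M - 1 = d := by rw [hM]; exact Nat.add_sub_cancel _ _
    rw [h1]
    calc 4 * Lam * (d * e) = d * (4 * Lam * e) := by ring
      _ ≤ A.card := Nat.div_mul_le_self _ _
  have hM2 : A.card + 1 ≤ 4 * Lam * e * M := by
    have := Nat.lt_mul_div_succ A.card hden
    exact this
  obtain ⟨K, _, hKne, hKr⟩ := chain (M := M) h hAc hF hM1 hq hB hOm hG IH M le_rfl
  have hr := rr_le hq hKne (Hyp K hKne)
  set T := TT Γ q B A F with hT
  have hTpos : 0 < T := by
    rw [hT]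
    unfold TT
    have hOF : (0 : ℝ) < ((Om Γ A F).card : ℝ) := by exact_mod_cast Finset.card_pos.2 hOm
    positivity
  have h1 : T ^ M ≤ (2 : ℝ) ^ (A.card + 1) := by
    have h2 := hKr.trans hr
    have h3 : (Fintype.card Γ : ℝ) * T ^ M ≤ (Fintype.card Γ : ℝ) * 2 ^ (A.card + 1) := by
      rw [mul_comm (Fintype.card Γ : ℝ) ((2 : ℝ) ^ (A.card + 1))]
      exact h2
    exact le_of_mul_le_mul_left h3 hG'
  have h2 : T ^ M ≤ ((2 : ℝ) ^ (4 * Lam * e)) ^ M := by
    rw [← pow_mul]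
    exact h1.trans (pow_le_pow_right₀ (by norm_num) hM2)
  have h3 : T ≤ (2 : ℝ) ^ (4 * Lam * e) :=
    (pow_le_pow_iff_left₀ hTpos.le (by positivity) (by rw [hM]; exact Nat.succ_ne_zero d)).1 h2
  have hD : 0 < (2 : ℝ) ^ (e + 1) * (Fintype.card Γ : ℝ) * B ^ e * q ^ e := by positivity
  have h4 : ((Om Γ A F).card : ℝ) = T * ((2 : ℝ) ^ (e + 1) * (Fintype.card Γ : ℝ) * B ^ e * q ^ e) := by
    rw [hT]
    unfold TT
    rw [div_mul_cancel₀ _ hD.ne']
  have h5 : (2 : ℝ) ^ (4 * Lam * e) * 2 ^ (e + 1) ≤ B ^ e := by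
    rw [← pow_add, hBdef, ← pow_mul]
    refine pow_le_pow_right₀ (by norm_num) ?_
    have : 4 * Lam * e + (e + 1) ≤ (4 * Lam + 2) * e := by nlinarith
    exact this
  rw [h4]
  calc T * ((2 : ℝ) ^ (e + 1) * (Fintype.card Γ : ℝ) * B ^ e * q ^ e)
      ≤ (2 : ℝ) ^ (4 * Lam * e) * ((2 : ℝ) ^ (e + 1) * (Fintype.card Γ : ℝ) * B ^ e * q ^ e) :=
        mul_le_mul_of_nonneg_right h3 hD.le
    _ = ((2 : ℝ) ^ (4 * Lam * e) * 2 ^ (e + 1)) * ((Fintype.card Γ : ℝ) * B ^ e * q ^ e) := by ring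
    _ ≤ B ^ e * ((Fintype.card Γ : ℝ) * B ^ e * q ^ e) :=
        mul_le_mul_of_nonneg_right h5 (by positivity)
    _ = (Fintype.card Γ : ℝ) * (B ^ 2 * q) ^ e := by
        have h6 : (B ^ 2 * q) ^ e = B ^ e * B ^ e * q ^ e := by
          rw [mul_pow, sq, mul_pow]
        rw [h6]
        ring

lemma mem_gen_smul (A : Finset X) (γ : Γ) : γ • A ∈ gen Γ A := by
  classical
  unfold gen
  exact mem_filter.2 ⟨mem_univ _, γ, subset_rfl⟩

/-- The constant. -/
noncomputable def KK (Lam : ℕ) : ℝ := (2 : ℝ) ^ (8 * Lam + 4)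

lemma KK_eq (Lam : ℕ) : KK Lam = ((2 : ℝ) ^ (4 * Lam + 2)) ^ 2 := by
  unfold KK
  rw [← pow_mul]
  congr 1
  ring

lemma KK_pos (Lam : ℕ) : 0 < KK Lam := by
  unfold KK
  positivity

lemma one_le_KK (Lam : ℕ) : 1 ≤ KK Lam := by
  unfold KK
  exact one_le_pow₀ (by norm_num)

/-- A fractional cover of cost at most `1/2` at `p` forces an integral cover of cost at most `1/2`
at `p / KK Lam`. -/
theorem small_of_frac {A : Finset X} {Lam : ℕ} (hA : A.Nonempty) (h : OrbitsLarge Γ A Lam) {p : ℝ}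
    (hp : 0 ≤ p) (hf : IsFracSmall (gen Γ A) p) : IsSmall (gen Γ A) (p / KK Lam) := by
  classical
  by_contra hns
  set q := p / KK Lam with hqdef
  have hq0 : 0 ≤ q := div_nonneg hp (KK_pos Lam).le
  have hG : 0 < Fintype.card Γ := Fintype.card_pos
  have hG' : (0 : ℝ) < (Fintype.card Γ : ℝ) := by exact_mod_cast hG
  have Hyp : ∀ K : Finset X, (Om Γ A K).Nonempty →
      1 / 2 < (((univ : Finset Γ).image (fun γ => γ • K)).card : ℝ) * q ^ K.card := by
    intro K hK
    obtain ⟨γ0, hγ0⟩ := hK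
    by_contra hle
    apply hns
    refine ⟨(univ : Finset Γ).image (fun γ => γ • K), ?_, ?_⟩
    · intro H hH
      unfold gen at hH
      obtain ⟨γ, hγ⟩ := (mem_filter.1 hH).2
      refine ⟨(γ * γ0) • K, mem_image.2 ⟨_, mem_univ _, rfl⟩, ?_⟩
      rw [mul_smul]
      exact (Finset.smul_finset_subset_smul_finset (mem_Om.1 hγ0)).trans hγ
    · have h1 : ∀ S ∈ (univ : Finset Γ).image (fun γ => γ • K), q ^ S.card = q ^ K.card := by
        intro S hS
        obtain ⟨γ, _, rfl⟩ := mem_image.1 hS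
        rw [Finset.card_smul_finset]
      rw [Finset.sum_congr rfl h1, Finset.sum_const, nsmul_eq_mul]
      exact not_lt.1 hle
  have hq : 0 < q := by
    rcases hq0.lt_or_eq with hlt | heq
    · exact hlt
    · exfalso
      have h1 := Hyp A ⟨1, mem_Om.2 (by simp)⟩
      rw [← heq, zero_pow (Finset.card_pos.2 hA).ne'] at h1
      norm_num at h1
  have hmain := main_bound h hA hq Hyp
  have hmain' : ∀ S : Finset X, ((Om Γ A S).card : ℝ) ≤ (Fintype.card Γ : ℝ) * p ^ S.card := by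
    intro S
    have h1 := hmain S
    have h2 : ((2 : ℝ) ^ (4 * Lam + 2)) ^ 2 * q = p := by
      rw [← KK_eq, hqdef]
      field_simp [(KK_pos Lam).ne']
    rwa [h2] at h1
  obtain ⟨g, hg, hcov, hcost⟩ := hf
  have hone : ∀ γ : Γ, (1 : ℝ) ≤ ∑ S : Finset X, if S ⊆ γ • A then g S else 0 := by
    intro γ
    have h1 := hcov _ (mem_gen_smul A γ)
    have h2 : (γ • A).powerset = (univ : Finset (Finset X)).filter (fun S => S ⊆ γ • A) := by
      ext S
      simp
    rw [h2, Finset.sum_filter] at h1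
    exact h1
  have hsum : (Fintype.card Γ : ℝ) ≤ ∑ γ : Γ, ∑ S : Finset X, if S ⊆ γ • A then g S else 0 := by
    calc (Fintype.card Γ : ℝ) = ∑ _γ : Γ, (1 : ℝ) := by simp
      _ ≤ _ := Finset.sum_le_sum (fun γ _ => hone γ)
  rw [Finset.sum_comm] at hsum
  have hS : ∀ S : Finset X, (∑ γ : Γ, if S ⊆ γ • A then g S else 0)
      ≤ g S * ((Fintype.card Γ : ℝ) * p ^ S.card) := by
    intro S
    have h1 : (∑ γ : Γ, if S ⊆ γ • A then g S else 0)
        = ((univ.filter (fun γ : Γ => S ⊆ γ • A)).card : ℝ) * g S := by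
      rw [← Finset.sum_filter, Finset.sum_const, nsmul_eq_mul]
    have h2 : (univ.filter (fun γ : Γ => S ⊆ γ • A)).card ≤ (Om Γ A S).card := by
      refine Finset.card_le_card_of_injOn (fun γ => γ⁻¹) ?_ ?_
      · intro γ hγ
        have hγ' : S ⊆ γ • A := (mem_filter.1 (Finset.mem_coe.1 hγ)).2
        refine Finset.mem_coe.2 (mem_Om.2 ?_)
        have h3 := Finset.smul_finset_subset_smul_finset (a := γ⁻¹) hγ'
        rwa [inv_smul_smul] at h3
      · intro a _ b _ hab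
        exact inv_injective hab
    have h3 : ((univ.filter (fun γ : Γ => S ⊆ γ • A)).card : ℝ) ≤ (Om Γ A S).card := by
      exact_mod_cast h2
    rw [h1, mul_comm]
    exact mul_le_mul_of_nonneg_left (h3.trans (hmain' S)) (hg S).1
  have hfin : (Fintype.card Γ : ℝ) ≤ (Fintype.card Γ : ℝ) * ∑ S : Finset X, g S * p ^ S.card := by
    refine hsum.trans ?_
    rw [Finset.mul_sum]
    refine Finset.sum_le_sum (fun S _ => ?_)
    refine (hS S).trans (le_of_eq ?_)
    ring
  have : (Fintype.card Γ : ℝ) * ∑ S : Finset X, g S * p ^ S.card ≤ (Fintype.card Γ : ℝ) * (1 / 2) :=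
    mul_le_mul_of_nonneg_left hcost hG'.le
  linarith

/-- The threshold comparison. -/
theorem qFrac_le {A : Finset X} {Lam : ℕ} (hA : A.Nonempty) (h : OrbitsLarge Γ A Lam) :
    qFrac (gen Γ A) ≤ KK Lam * qInt (gen Γ A) := by
  classical
  have hbdd : BddAbove {p : ℝ | 0 ≤ p ∧ p ≤ 1 ∧ IsSmall (gen Γ A) p} :=
    ⟨1, fun p hp => hp.2.1⟩
  have hnn : 0 ≤ qInt (gen Γ A) := Real.sSup_nonneg (fun p hp => hp.1)
  refine Real.sSup_le ?_ (mul_nonneg (KK_pos Lam).le hnn)
  rintro p ⟨hp0, hp1, hfs⟩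
  have h1 := small_of_frac hA h hp0 hfs
  have h2 : p / KK Lam ≤ qInt (gen Γ A) := by
    refine le_csSup hbdd ⟨div_nonneg hp0 (KK_pos Lam).le, ?_, h1⟩
    exact (div_le_self hp0 (one_le_KK Lam)).trans hp1
  rw [div_le_iff₀ (KK_pos Lam)] at h2
  linarith

end Vale.Agent.Lib.P034
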