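import Mathlib

open Finset
open scoped Pointwise

namespace Vale.Agent.Lib.P034

variable {X : Type} [Fintype X] [DecidableEq X]

/-- `G` covers `F`: every member of `F` contains a member of `G`. -/
def Covers (G F : Finset (Finset X)) : Prop := ∀ H ∈ F, ∃ S ∈ G, S ⊆ H

/-- `F` is `p`-small: it has a cover of cost at most `1/2` at `p`. -/
def IsSmall (F : Finset (Finset X)) (p : ℝ) : Prop :=
  ∃ G : Finset (Finset X), Covers G F ∧ ∑ S ∈ G, p ^ S.card ≤ 1 / 2

/-- `F` has a fractional cover `g : 2^X → [0,1]` of cost at most `1/2` at `p`. -/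
def IsFracSmall (F : Finset (Finset X)) (p : ℝ) : Prop :=
  ∃ g : Finset X → ℝ, (∀ S, 0 ≤ g S ∧ g S ≤ 1) ∧ (∀ H ∈ F, 1 ≤ ∑ S ∈ H.powerset, g S) ∧
    ∑ S, g S * p ^ S.card ≤ 1 / 2

/-- The integral expectation threshold `q(F)`. -/
noncomputable def qInt (F : Finset (Finset X)) : ℝ := sSup {p | 0 ≤ p ∧ p ≤ 1 ∧ IsSmall F p}

/-- The fractional expectation threshold `q_f(F)`. -/
noncomputable def qFrac (F : Finset (Finset X)) : ℝ := sSup {p | 0 ≤ p ∧ p ≤ 1 ∧ IsFracSmall F p}

variable (Γ : Type) [Group Γ] [Fintype Γ] [MulAction Γ X]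

open Classical in
/-- The increasing family generated by the `Γ`-orbit of `A`: all subsets of `X` that contain some
translate `γ • A`. -/
noncomputable def gen (A : Finset X) : Finset (Finset X) := univ.filter (fun H => ∃ γ : Γ, γ • A ⊆ H)

/-- The setwise stabilizer of `A` in `Γ` is transitive on `A`; equivalently `Γ` is transitive on the
flags `(x, γ • A)`, `x ∈ γ • A`, of the hypergraph formed by the translates of `A`. -/
def FlagTransitive (A : Finset X) : Prop :=
  ∀ x ∈ A, ∀ y ∈ A, ∃ s : Γ, s • A = A ∧ s • x = y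

open Classical in
/-- Every orbit of the setwise stabilizer of `A` on `A` contains at least a `1/Lam` fraction of `A`. -/
def OrbitsLarge (A : Finset X) (Lam : ℕ) : Prop :=
  ∀ x ∈ A, A.card ≤ Lam * (A.filter (fun y => ∃ s : Γ, s • A = A ∧ s • x = y)).card

end Vale.Agent.Lib.P034
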