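import Mathlib

open Finset

namespace Vale.Agent.Lib.P034

/-- Jensen for the exponential on a finite set. -/
lemma jensen_exp {β : Type} {B : Finset β} (hB : B.Nonempty) (Y : β → ℝ) :
    (B.card : ℝ) * Real.exp ((∑ b ∈ B, Y b) / B.card) ≤ ∑ b ∈ B, Real.exp (Y b) := by
  have hn : (0 : ℝ) < B.card := by exact_mod_cast Finset.card_pos.2 hB
  set m := (∑ b ∈ B, Y b) / B.card with hm
  have h1 : ∀ b ∈ B, Real.exp m * (1 + (Y b - m)) ≤ Real.exp (Y b) := by
    intro b _
    have h2 := Real.add_one_le_exp (Y b - m)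
    have h3 : Real.exp (Y b) = Real.exp m * Real.exp (Y b - m) := by
      rw [← Real.exp_add]
      congr 1
      ring
    rw [h3]
    exact mul_le_mul_of_nonneg_left (by linarith) (Real.exp_pos m).le
  have h4 : ∑ b ∈ B, Real.exp m * (1 + (Y b - m)) = (B.card : ℝ) * Real.exp m := by
    rw [← Finset.mul_sum, Finset.sum_add_distrib, Finset.sum_sub_distrib]
    simp only [Finset.sum_const, nsmul_eq_mul, mul_one]
    have h5 : ∑ b ∈ B, Y b = (B.card : ℝ) * m := by
      rw [hm]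
      field_simp
    rw [h5]
    ring
  rw [← h4]
  exact Finset.sum_le_sum h1

lemma one_sub_add_mul_log_nonneg {c : ℝ} (h0 : 0 ≤ c) : 0 ≤ (1 - c) + c * Real.log c := by
  rcases h0.lt_or_eq with hpos | heq
  · have h1 := Real.one_sub_inv_le_log_of_pos hpos
    have h2 : c * (1 - c⁻¹) ≤ c * Real.log c := mul_le_mul_of_nonneg_left h1 hpos.le
    have h3 : c * (1 - c⁻¹) = c - 1 := by
      field_simp
    linarith
  · rw [← heq]
    simp

/-- The key inequality: if the events `f ∈ Ev φ` have exact marginals `c f`, then the weighted sum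
over the `φ` with `Ev φ ≠ F` is at least `1 - ∏ c`. -/
lemma key_ineq {α β : Type} [DecidableEq α] {Φ : Finset β} (hΦ : Φ.Nonempty) {F : Finset α}
    (c : α → ℝ) (hc0 : ∀ f ∈ F, 0 ≤ c f) (Ev : β → Finset α)
    (hEv : ∀ φ ∈ Φ, Ev φ ⊆ F)
    (hm : ∀ f ∈ F, (((Φ.filter (fun φ => f ∈ Ev φ)).card : ℕ) : ℝ) = c f * Φ.card) :
    (1 - ∏ f ∈ F, c f) * Φ.card
      ≤ ∑ φ ∈ Φ.filter (fun φ => Ev φ ≠ F),
          Real.exp 1 ^ (F \ Ev φ).card * ∏ f ∈ Ev φ, c f := by
  classical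
  have hn : (0 : ℝ) < Φ.card := by exact_mod_cast Finset.card_pos.2 hΦ
  set Y : β → ℝ := fun φ => ((F \ Ev φ).card : ℝ) + ∑ f ∈ Ev φ, Real.log (c f) with hY
  -- positivity on the events that occur
  have hpos : ∀ φ ∈ Φ, ∀ f ∈ Ev φ, 0 < c f := by
    intro φ hφ f hf
    have h1 := hm f (hEv φ hφ hf)
    have h2 : 1 ≤ (Φ.filter (fun φ => f ∈ Ev φ)).card :=
      Finset.card_pos.2 ⟨φ, mem_filter.2 ⟨hφ, hf⟩⟩
    have h3 : (1 : ℝ) ≤ (((Φ.filter (fun φ => f ∈ Ev φ)).card : ℕ) : ℝ) := by exact_mod_cast h2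
    rw [h1] at h3
    by_contra hc
    have h4 : c f ≤ 0 := not_lt.1 hc
    nlinarith
  have hexp : ∀ φ ∈ Φ, Real.exp 1 ^ (F \ Ev φ).card * ∏ f ∈ Ev φ, c f = Real.exp (Y φ) := by
    intro φ hφ
    rw [hY]
    simp only
    rw [Real.exp_add, Real.exp_sum]
    congr 1
    · rw [← Real.exp_nat_mul, mul_one]
    · refine Finset.prod_congr rfl ?_
      intro f hf
      rw [Real.exp_log (hpos φ hφ f hf)]
  -- the total sum of `Y`
  set Lam : ℝ := ∑ f ∈ F, ((1 - c f) + c f * Real.log (c f)) with hLam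
  have hLam0 : 0 ≤ Lam := Finset.sum_nonneg (fun f hf => one_sub_add_mul_log_nonneg (hc0 f hf))
  have hsumY : ∑ φ ∈ Φ, Y φ = (Φ.card : ℝ) * Lam := by
    have h1 : ∀ φ ∈ Φ, Y φ = ∑ f ∈ F, ((if f ∈ Ev φ then Real.log (c f) else 1)) := by
      intro φ hφ
      rw [hY]
      simp only
      have hsub := hEv φ hφ
      have h2 : ∑ f ∈ F, (if f ∈ Ev φ then Real.log (c f) else 1)
          = ∑ f ∈ F.filter (fun f => f ∈ Ev φ), Real.log (c f)
            + ∑ f ∈ F.filter (fun f => ¬ f ∈ Ev φ), (1 : ℝ) := by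
        rw [Finset.sum_ite]
      rw [h2]
      have h3 : F.filter (fun f => f ∈ Ev φ) = Ev φ := by
        ext f
        simp only [mem_filter]
        exact ⟨fun h => h.2, fun h => ⟨hsub h, h⟩⟩
      have h4 : F.filter (fun f => ¬ f ∈ Ev φ) = F \ Ev φ := by
        ext f
        simp [mem_sdiff]
      rw [h3, h4, Finset.sum_const, nsmul_eq_mul, mul_one, add_comm]
    rw [Finset.sum_congr rfl h1, Finset.sum_comm, hLam, Finset.mul_sum]
    refine Finset.sum_congr rfl ?_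
    intro f hf
    have h5 : ∑ φ ∈ Φ, (if f ∈ Ev φ then Real.log (c f) else 1)
        = ((Φ.filter (fun φ => f ∈ Ev φ)).card : ℝ) * Real.log (c f)
          + ((Φ.filter (fun φ => ¬ f ∈ Ev φ)).card : ℝ) := by
      rw [Finset.sum_ite, Finset.sum_const, Finset.sum_const, nsmul_eq_mul, nsmul_eq_mul, mul_one]
    rw [h5, hm f hf]
    have h6 : ((Φ.filter (fun φ => ¬ f ∈ Ev φ)).card : ℝ) = (1 - c f) * Φ.card := by
      have h7 := Finset.card_filter_add_card_filter_not (s := Φ) (fun φ => f ∈ Ev φ)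
      have h8 : ((Φ.filter (fun φ => f ∈ Ev φ)).card : ℝ)
          + ((Φ.filter (fun φ => ¬ f ∈ Ev φ)).card : ℝ) = Φ.card := by exact_mod_cast h7
      rw [hm f hf] at h8
      linarith
    rw [h6]
    ring
  set B := Φ.filter (fun φ => Ev φ ≠ F) with hB
  have hsumB : ∑ φ ∈ B, Real.exp 1 ^ (F \ Ev φ).card * ∏ f ∈ Ev φ, c f
      = ∑ φ ∈ B, Real.exp (Y φ) :=
    Finset.sum_congr rfl (fun φ hφ => hexp φ (mem_filter.1 hφ).1)
  rw [hsumB]
  have hZ0 : 0 ≤ ∏ f ∈ F, c f := Finset.prod_nonneg hc0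
  by_cases hall : B = Φ
  · -- no `φ` with full overlap
    have h1 := jensen_exp hΦ Y
    rw [hsumY, mul_div_cancel_left₀ _ hn.ne'] at h1
    rw [hall]
    have h2 : (1 : ℝ) ≤ Real.exp Lam := Real.one_le_exp hLam0
    have h3 : (Φ.card : ℝ) * 1 ≤ (Φ.card : ℝ) * Real.exp Lam :=
      mul_le_mul_of_nonneg_left h2 hn.le
    have h4 : (1 - ∏ f ∈ F, c f) * Φ.card ≤ (Φ.card : ℝ) * 1 := by nlinarith
    linarith
  · -- some `φ` with `Ev φ = F`
    have hex : ∃ φ0 ∈ Φ, Ev φ0 = F := by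
      by_contra hno
      apply hall
      refine Finset.filter_true_of_mem ?_
      intro φ hφ hEq
      exact hno ⟨φ, hφ, hEq⟩
    obtain ⟨φ0, hφ0, hEq0⟩ := hex
    have hcpos : ∀ f ∈ F, 0 < c f := by
      intro f hf
      exact hpos φ0 hφ0 f (by rw [hEq0]; exact hf)
    set ζ : ℝ := - ∑ f ∈ F, Real.log (c f) with hζ
    have hZexp : ∏ f ∈ F, c f = Real.exp (-ζ) := by
      rw [hζ, neg_neg, Real.exp_sum]
      exact Finset.prod_congr rfl (fun f hf => (Real.exp_log (hcpos f hf)).symm)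
    set Cc := Φ.filter (fun φ => ¬ Ev φ ≠ F) with hCc
    have hsplit : (B.card : ℝ) + Cc.card = Φ.card := by
      have := Finset.card_filter_add_card_filter_not (s := Φ) (fun φ => Ev φ ≠ F)
      exact_mod_cast this
    have hYC : ∀ φ ∈ Cc, Y φ = -ζ := by
      intro φ hφ
      have h1 : Ev φ = F := not_not.1 (mem_filter.1 hφ).2
      rw [hY]
      simp only
      rw [h1, Finset.sdiff_self, Finset.card_empty, hζ]
      simp
    have hsumC : ∑ φ ∈ Cc, Y φ = (Cc.card : ℝ) * (-ζ) := by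
      rw [Finset.sum_congr rfl hYC, Finset.sum_const, nsmul_eq_mul]
    have hsumB2 : ∑ φ ∈ B, Y φ = (Φ.card : ℝ) * Lam + (Cc.card : ℝ) * ζ := by
      have h1 := Finset.sum_filter_add_sum_filter_not Φ (fun φ => Ev φ ≠ F) Y
      rw [hsumY] at h1
      have h2 : ∑ φ ∈ Φ.filter (fun φ => ¬ Ev φ ≠ F), Y φ = (Cc.card : ℝ) * (-ζ) := hsumC
      rw [h2] at h1
      have h3 : ∑ φ ∈ Φ.filter (fun φ => Ev φ ≠ F), Y φ = ∑ φ ∈ B, Y φ := rfl
      rw [h3] at h1
      linarith
    by_cases hBe : B.Nonempty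
    · have hnB : (0 : ℝ) < B.card := by exact_mod_cast Finset.card_pos.2 hBe
      have hC0 : (0 : ℝ) ≤ Cc.card := by positivity
      have h1 := jensen_exp hBe Y
      have h2 : Real.exp ((∑ φ ∈ B, Y φ) / B.card) ≥ 1 + (∑ φ ∈ B, Y φ) / B.card := by
        have := Real.add_one_le_exp ((∑ φ ∈ B, Y φ) / B.card)
        linarith
      have h3 : (B.card : ℝ) * (1 + (∑ φ ∈ B, Y φ) / B.card)
          = (B.card : ℝ) + ∑ φ ∈ B, Y φ := by
        field_simp
      have h4 : (B.card : ℝ) + ∑ φ ∈ B, Y φ ≤ ∑ φ ∈ B, Real.exp (Y φ) := by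
        calc (B.card : ℝ) + ∑ φ ∈ B, Y φ = (B.card : ℝ) * (1 + (∑ φ ∈ B, Y φ) / B.card) := h3.symm
          _ ≤ (B.card : ℝ) * Real.exp ((∑ φ ∈ B, Y φ) / B.card) :=
            mul_le_mul_of_nonneg_left h2 hnB.le
          _ ≤ _ := h1
      refine le_trans ?_ h4
      rw [hsumB2, hZexp, ← hsplit]
      have h5 : 1 - Real.exp (-ζ) ≤ ζ := by
        have := Real.add_one_le_exp (-ζ)
        linarith
      have h6 : 1 - Real.exp (-ζ) ≤ 1 := by
        have := Real.exp_pos (-ζ)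
        linarith
      have h7 : (0 : ℝ) ≤ (Φ.card : ℝ) * Lam := by positivity
      nlinarith
    · -- all `Ev φ = F`
      rw [Finset.not_nonempty_iff_eq_empty] at hBe
      rw [hBe, Finset.sum_empty]
      have hone : ∀ f ∈ F, c f = 1 := by
        intro f hf
        have h1 := hm f hf
        have h2 : Φ.filter (fun φ => f ∈ Ev φ) = Φ := by
          refine Finset.filter_true_of_mem ?_
          intro φ hφ
          have h3 : φ ∉ B := by rw [hBe]; simp
          have h4 : Ev φ = F := by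
            by_contra hne
            exact h3 (mem_filter.2 ⟨hφ, hne⟩)
          rw [h4]
          exact hf
        rw [h2] at h1
        have h3 : (c f - 1) * Φ.card = 0 := by linarith
        rcases mul_eq_zero.1 h3 with h4 | h4
        · linarith
        · exact absurd h4 hn.ne'
      rw [Finset.prod_congr rfl hone, Finset.prod_const_one]
      simp

end Vale.Agent.Lib.P034
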