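import Vale.Agent.Lib.P034.Core4
import Vale.Agent.Lib.P034.T1

open Finset
open scoped Pointwise

namespace Vale.Agent.Lib.P034

variable {X : Type} [Fintype X] [DecidableEq X]
variable {Γ : Type} [Group Γ] [Fintype Γ] [MulAction Γ X]
variable {ι : Type} [DecidableEq ι]

open Classical in
/-- Group elements moving `K` into `A` with prescribed classes. -/
noncomputable def Omt (Γ : Type) [Group Γ] [Fintype Γ] [MulAction Γ X] (A : Finset X)
    (cls ρ : X → ι) (K : Finset X) : Finset Γ :=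
  univ.filter (fun γ => ∀ y ∈ K, γ • y ∈ A ∧ cls (γ • y) = ρ y)

lemma mem_Omt {A : Finset X} {cls ρ : X → ι} {K : Finset X} {γ : Γ} :
    γ ∈ Omt Γ A cls ρ K ↔ ∀ y ∈ K, γ • y ∈ A ∧ cls (γ • y) = ρ y := by
  classical
  simp [Omt]

/-- A class of `A`. -/
def OO (A : Finset X) (cls : X → ι) (i : ι) : Finset X := A.filter (fun x => cls x = i)

lemma mem_OO {A : Finset X} {cls : X → ι} {i : ι} {x : X} : x ∈ OO A cls i ↔ x ∈ A ∧ cls x = i := by
  simp [OO]

/-- The classes are the orbits of the stabilizer of `A` on `A`. -/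
structure ClsOK (Γ : Type) [Group Γ] [Fintype Γ] [MulAction Γ X] (A : Finset X) (cls : X → ι) :
    Prop where
  inv : ∀ s : Γ, s • A = A → ∀ x ∈ A, cls (s • x) = cls x
  trans : ∀ x ∈ A, ∀ y ∈ A, cls x = cls y → ∃ s : Γ, s • A = A ∧ s • x = y

lemma smul_mem_of_stab {A : Finset X} {s : Γ} (hs : s • A = A) {x : X} (hx : x ∈ A) : s • x ∈ A := by
  rw [← hs]
  exact Finset.smul_mem_smul_finset hx

lemma fiber_le {A : Finset X} {cls τ : X → ι} {F : Finset X} (hc : ClsOK Γ A cls) {f x y : X}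
    (hx : x ∈ A) (hy : y ∈ A) (hxy : cls x = cls y) :
    ((Omt Γ A cls τ F).filter (fun φ => φ • f = x)).card
      ≤ ((Omt Γ A cls τ F).filter (fun φ => φ • f = y)).card := by
  classical
  obtain ⟨s, hs, hsx⟩ := hc.trans x hx y hy hxy
  refine Finset.card_le_card_of_injOn (fun φ => s * φ) ?_ ?_
  · intro φ hφ
    have hφ' := Finset.mem_filter.1 (Finset.mem_coe.1 hφ)
    refine Finset.mem_coe.2 (Finset.mem_filter.2 ⟨mem_Omt.2 ?_, ?_⟩)
    · intro z hz
      have h1 := mem_Omt.1 hφ'.1 z hz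
      rw [mul_smul]
      refine ⟨smul_mem_of_stab hs h1.1, ?_⟩
      rw [hc.inv s hs _ h1.1]
      exact h1.2
    · rw [mul_smul, hφ'.2, hsx]
  · intro a _ b _ hab
    exact mul_left_cancel hab

lemma marginal {A : Finset X} {cls τ : X → ι} {F : Finset X} (hc : ClsOK Γ A cls) {f : X}
    (hf : f ∈ F) (T : Finset X) :
    ((Omt Γ A cls τ F).filter (fun φ => φ • f ∈ T)).card * (OO A cls (τ f)).card
      = (T ∩ OO A cls (τ f)).card * (Omt Γ A cls τ F).card := by
  classical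
  set Φ := Omt Γ A cls τ F with hΦ
  set O := OO A cls (τ f) with hO
  have hmaps : ∀ φ ∈ Φ, φ • f ∈ O := by
    intro φ hφ
    have := mem_Omt.1 hφ f hf
    exact mem_OO.2 this
  by_cases hne : O.Nonempty
  · obtain ⟨x0, hx0⟩ := hne
    set N := (Φ.filter (fun φ => φ • f = x0)).card with hN
    have hfib : ∀ x ∈ O, (Φ.filter (fun φ => φ • f = x)).card = N := by
      intro x hx
      have h1 := mem_OO.1 hx
      have h2 := mem_OO.1 hx0
      refine le_antisymm ?_ ?_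
      · exact fiber_le hc h1.1 h2.1 (h1.2.trans h2.2.symm)
      · exact fiber_le hc h2.1 h1.1 (h2.2.trans h1.2.symm)
    have h1 : Φ.card = O.card * N := by
      rw [Finset.card_eq_sum_card_fiberwise (f := fun φ => φ • f) (t := O) hmaps,
        Finset.sum_congr rfl hfib, Finset.sum_const, smul_eq_mul]
    have h2 : (Φ.filter (fun φ => φ • f ∈ T)).card = (T ∩ O).card * N := by
      have hm2 : ∀ φ ∈ Φ.filter (fun φ => φ • f ∈ T), φ • f ∈ T ∩ O := by
        intro φ hφ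
        have := Finset.mem_filter.1 hφ
        exact Finset.mem_inter.2 ⟨this.2, hmaps φ this.1⟩
      rw [Finset.card_eq_sum_card_fiberwise (f := fun φ => φ • f) (t := T ∩ O) hm2]
      have h3 : ∀ x ∈ T ∩ O, ((Φ.filter (fun φ => φ • f ∈ T)).filter (fun φ => φ • f = x)).card = N := by
        intro x hx
        have hx' := Finset.mem_inter.1 hx
        rw [← hfib x hx'.2]
        congr 1
        ext φ
        simp only [Finset.mem_filter]
        constructor
        · rintro ⟨⟨h4, _⟩, h5⟩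
          exact ⟨h4, h5⟩
        · rintro ⟨h4, h5⟩
          exact ⟨⟨h4, by rw [h5]; exact hx'.1⟩, h5⟩
      rw [Finset.sum_congr rfl h3, Finset.sum_const, smul_eq_mul]
    rw [h1, h2]
    ring
  · rw [Finset.not_nonempty_iff_eq_empty] at hne
    rw [hne]
    simp

/-- Number of points of `K` of class `i`. -/
def tt (ρ : X → ι) (K : Finset X) (i : ι) : ℕ := (K.filter (fun y => ρ y = i)).card

lemma inter_OO {A : Finset X} {cls ρ : X → ι} {K : Finset X} {γ : Γ} (hγ : γ ∈ Omt Γ A cls ρ K)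
    (i : ι) : ((γ • K) ∩ OO A cls i).card = tt ρ K i := by
  classical
  have h1 : (γ • K) ∩ OO A cls i = γ • (K.filter (fun y => ρ y = i)) := by
    ext z
    simp only [Finset.mem_inter, Finset.mem_smul_finset, mem_OO, Finset.mem_filter]
    constructor
    · rintro ⟨⟨y, hy, rfl⟩, _, h3⟩
      refine ⟨y, ⟨hy, ?_⟩, rfl⟩
      rw [← (mem_Omt.1 hγ y hy).2]
      exact h3
    · rintro ⟨y, ⟨hy, h2⟩, rfl⟩
      have h3 := mem_Omt.1 hγ y hy
      exact ⟨⟨y, hy, rfl⟩, h3.1, h3.2.trans h2⟩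
  rw [h1, Finset.card_smul_finset]
  rfl

lemma tt_le {A : Finset X} {cls ρ : X → ι} {K : Finset X} (hne : (Omt Γ A cls ρ K).Nonempty)
    (i : ι) : tt ρ K i ≤ (OO A cls i).card := by
  classical
  obtain ⟨γ, hγ⟩ := hne
  rw [← inter_OO hγ i]
  exact Finset.card_le_card Finset.inter_subset_right

/-- Density of `K` in the class `i`. -/
noncomputable def ci (A : Finset X) (cls ρ : X → ι) (K : Finset X) (i : ι) : ℝ :=
  (tt ρ K i : ℝ) / ((OO A cls i).card : ℝ)

lemma ci_nonneg (A : Finset X) (cls ρ : X → ι) (K : Finset X) (i : ι) : 0 ≤ ci A cls ρ K i := by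
  unfold ci
  positivity

lemma ci_le_one {A : Finset X} {cls ρ : X → ι} {K : Finset X} (hne : (Omt Γ A cls ρ K).Nonempty)
    (i : ι) : ci A cls ρ K i ≤ 1 := by
  unfold ci
  refine div_le_one_of_le₀ ?_ (by positivity)
  exact_mod_cast tt_le hne i

lemma OO_pos {A : Finset X} {cls τ : X → ι} {F : Finset X} (hΦ : (Omt Γ A cls τ F).Nonempty)
    {f : X} (hf : f ∈ F) : 0 < (OO A cls (τ f)).card := by
  obtain ⟨φ, hφ⟩ := hΦ
  exact Finset.card_pos.2 ⟨φ • f, mem_OO.2 (mem_Omt.1 hφ f hf)⟩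

lemma mem_pat {K F : Finset X} {δ : Γ} {f : X} : f ∈ pat K F δ ↔ f ∈ F ∧ δ • f ∈ K := by
  classical
  unfold pat
  simp

lemma per_gamma {A : Finset X} {cls τ ρ : X → ι} {F K : Finset X} (hc : ClsOK Γ A cls)
    (hΦ : (Omt Γ A cls τ F).Nonempty) {γ : Γ} (hγ : γ ∈ Omt Γ A cls ρ K) :
    (1 - ∏ f ∈ F, ci A cls ρ K (τ f)) * ((Omt Γ A cls τ F).card : ℝ)
      ≤ ∑ φ ∈ (Omt Γ A cls τ F).filter (fun φ => pat K F (γ⁻¹ * φ) ≠ F),
        Real.exp 1 ^ (F \ pat K F (γ⁻¹ * φ)).card * ∏ f ∈ pat K F (γ⁻¹ * φ), ci A cls ρ K (τ f) := by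
  classical
  refine key_ineq hΦ (fun f => ci A cls ρ K (τ f)) (fun f _ => ci_nonneg _ _ _ _ _)
    (fun φ => pat K F (γ⁻¹ * φ)) ?_ ?_
  · intro φ _ f hf
    exact (mem_pat.1 hf).1
  · intro f hf
    have hs : (0 : ℝ) < ((OO A cls (τ f)).card : ℝ) := by exact_mod_cast OO_pos hΦ hf
    have hm := marginal (τ := τ) hc hf (γ • K)
    rw [inter_OO hγ] at hm
    have hfil : (Omt Γ A cls τ F).filter (fun φ => f ∈ pat K F (γ⁻¹ * φ))
        = (Omt Γ A cls τ F).filter (fun φ => φ • f ∈ γ • K) := by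
      refine Finset.filter_congr (fun φ _ => ?_)
      rw [mem_pat, mul_smul, Finset.inv_smul_mem_iff]
      simp [hf]
    rw [hfil]
    have hm' : (((Omt Γ A cls τ F).filter (fun φ => φ • f ∈ γ • K)).card : ℝ)
        * ((OO A cls (τ f)).card : ℝ) = (tt ρ K (τ f) : ℝ) * ((Omt Γ A cls τ F).card : ℝ) := by
      exact_mod_cast hm
    unfold ci
    field_simp
    linarith

open Classical in
/-- Those `γ` for which `γ * δ` is a typed embedding of `F`. -/
noncomputable def GG (Γ : Type) [Group Γ] [Fintype Γ] [MulAction Γ X] (A : Finset X)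
    (cls τ ρ : X → ι) (F K : Finset X) (δ : Γ) : Finset Γ :=
  (Omt Γ A cls ρ K).filter (fun γ => γ * δ ∈ Omt Γ A cls τ F)

lemma mem_GG {A : Finset X} {cls τ ρ : X → ι} {F K : Finset X} {δ γ : Γ} :
    γ ∈ GG Γ A cls τ ρ F K δ ↔ γ ∈ Omt Γ A cls ρ K ∧ γ * δ ∈ Omt Γ A cls τ F := by
  classical
  simp [GG]

/-- The weight of a translate. -/
noncomputable def VV (A : Finset X) (cls τ ρ : X → ι) (F K : Finset X) (δ : Γ) : ℝ :=
  Real.exp 1 ^ (F \ pat K F δ).card * ∏ f ∈ pat K F δ, ci A cls ρ K (τ f)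

lemma lower_bound {A : Finset X} {cls τ ρ : X → ι} {F K : Finset X} (hc : ClsOK Γ A cls)
    (hΦ : (Omt Γ A cls τ F).Nonempty) :
    (1 - ∏ f ∈ F, ci A cls ρ K (τ f)) * ((Omt Γ A cls τ F).card : ℝ)
        * ((Omt Γ A cls ρ K).card : ℝ)
      ≤ ∑ δ ∈ (univ : Finset Γ).filter (fun δ => pat K F δ ≠ F),
        ((GG Γ A cls τ ρ F K δ).card : ℝ) * VV A cls τ ρ F K δ := by
  classical
  have h1 : ∀ γ ∈ Omt Γ A cls ρ K, (1 - ∏ f ∈ F, ci A cls ρ K (τ f)) * ((Omt Γ A cls τ F).card : ℝ)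
      ≤ ∑ δ ∈ (univ : Finset Γ).filter (fun δ => pat K F δ ≠ F),
        if γ * δ ∈ Omt Γ A cls τ F then VV A cls τ ρ F K δ else 0 := by
    intro γ hγ
    refine (per_gamma hc hΦ hγ).trans (le_of_eq ?_)
    rw [← Finset.sum_filter]
    refine Finset.sum_nbij' (fun φ => γ⁻¹ * φ) (fun δ => γ * δ) ?_ ?_ ?_ ?_ ?_
    · intro φ hφ
      have h2 := Finset.mem_filter.1 hφ
      refine Finset.mem_filter.2 ⟨Finset.mem_filter.2 ⟨mem_univ _, h2.2⟩, ?_⟩
      rw [mul_inv_cancel_left]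
      exact h2.1
    · intro δ hδ
      have h2 := Finset.mem_filter.1 hδ
      refine Finset.mem_filter.2 ⟨h2.2, ?_⟩
      rw [inv_mul_cancel_left]
      exact (Finset.mem_filter.1 h2.1).2
    · intro φ _
      exact mul_inv_cancel_left γ φ
    · intro δ _
      exact inv_mul_cancel_left γ δ
    · intro φ _
      rfl
  calc (1 - ∏ f ∈ F, ci A cls ρ K (τ f)) * ((Omt Γ A cls τ F).card : ℝ)
        * ((Omt Γ A cls ρ K).card : ℝ)
      = ∑ _γ ∈ Omt Γ A cls ρ K,
          (1 - ∏ f ∈ F, ci A cls ρ K (τ f)) * ((Omt Γ A cls τ F).card : ℝ) := by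
        rw [Finset.sum_const, nsmul_eq_mul]
        ring
    _ ≤ ∑ γ ∈ Omt Γ A cls ρ K, ∑ δ ∈ (univ : Finset Γ).filter (fun δ => pat K F δ ≠ F),
          (if γ * δ ∈ Omt Γ A cls τ F then VV A cls τ ρ F K δ else 0) := Finset.sum_le_sum h1
    _ = ∑ δ ∈ (univ : Finset Γ).filter (fun δ => pat K F δ ≠ F), ∑ γ ∈ Omt Γ A cls ρ K,
          (if γ * δ ∈ Omt Γ A cls τ F then VV A cls τ ρ F K δ else 0) := Finset.sum_comm
    _ = _ := by
        refine Finset.sum_congr rfl (fun δ _ => ?_)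
        rw [← Finset.sum_filter, Finset.sum_const, nsmul_eq_mul]
        rfl

end Vale.Agent.Lib.P034
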