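import Vale.Agent.Lib.P034.T2

open Finset
open scoped Pointwise

namespace Vale.Agent.Lib.P034

variable {X : Type} [Fintype X] [DecidableEq X]
variable {Γ : Type} [Group Γ] [Fintype Γ] [MulAction Γ X]
variable {ι : Type} [DecidableEq ι]

lemma rel_mem {A : Finset X} {cls τ ρ : X → ι} {F K : Finset X} {γ0 δ : Γ}
    (hγ0 : γ0 ∈ Omt Γ A cls ρ K) (hrel : (GG Γ A cls τ ρ F K δ).Nonempty) :
    γ0 * δ ∈ Omt Γ A cls τ (pat K F δ) := by
  obtain ⟨γ1, hγ1⟩ := hrel
  have h1 := mem_GG.1 hγ1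
  refine mem_Omt.2 (fun f hf => ?_)
  have hf' := mem_pat.1 hf
  have h2 := mem_Omt.1 hγ0 _ hf'.2
  have h3 := mem_Omt.1 h1.1 _ hf'.2
  have h4 := mem_Omt.1 h1.2 f hf'.1
  rw [mul_smul] at h4 ⊢
  exact ⟨h2.1, h2.2.trans (h3.2.symm.trans h4.2)⟩

/-- The rate for the class `i`. -/
noncomputable def ra (A : Finset X) (cls ρ : X → ι) (K : Finset X) (L : ℝ) (i : ι) : ℝ :=
  (1 - ci A cls ρ K i) * L / Real.exp 1

lemma VV_nonneg (A : Finset X) (cls τ ρ : X → ι) (F K : Finset X) (δ : Γ) :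
    0 ≤ VV A cls τ ρ F K δ := by
  unfold VV
  refine mul_nonneg (pow_nonneg (Real.exp_pos 1).le _) (Finset.prod_nonneg (fun f _ => ci_nonneg _ _ _ _ _))

lemma upper_bound {A : Finset X} {cls τ ρ : X → ι} {F K : Finset X} {q L : ℝ} (hq : 0 < q)
    (hL : 0 < L)
    (IH : ∀ E : Finset X, E ⊂ F →
      ((Omt Γ A cls τ E).card : ℝ) ≤ (Fintype.card Γ : ℝ) * (L * q) ^ E.card)
    (hne : (Omt Γ A cls ρ K).Nonempty)
    (hcon : ∀ δ : Γ, pat K F δ ≠ F → (GG Γ A cls τ ρ F K δ).Nonempty →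
      ((GG Γ A cls τ ρ F K δ).card : ℝ) ≤ ((Omt Γ A cls ρ K).card : ℝ) *
        (q ^ (F \ pat K F δ).card * ∏ f ∈ F \ pat K F δ, ra A cls ρ K L (τ f))) :
    ∑ δ ∈ (univ : Finset Γ).filter (fun δ => pat K F δ ≠ F),
        ((GG Γ A cls τ ρ F K δ).card : ℝ) * VV A cls τ ρ F K δ
      ≤ ((Omt Γ A cls ρ K).card : ℝ) *
        ((Fintype.card Γ : ℝ) * (L * q) ^ F.card * (1 - ∏ f ∈ F, ci A cls ρ K (τ f))) := by
  classical
  obtain ⟨γ0, hγ0⟩ := id hne
  set c : X → ℝ := fun f => ci A cls ρ K (τ f) with hcdef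
  have hc0 : ∀ f, 0 ≤ c f := fun f => ci_nonneg _ _ _ _ _
  have hc1 : ∀ f, c f ≤ 1 := fun f => ci_le_one hne _
  set N : ℝ := ((Omt Γ A cls ρ K).card : ℝ) with hN
  have hN0 : 0 ≤ N := by positivity
  set D := (univ : Finset Γ).filter (fun δ => pat K F δ ≠ F) with hD
  set a : Γ → ℝ := fun δ => ((GG Γ A cls τ ρ F K δ).card : ℝ) * VV A cls τ ρ F K δ with ha
  set D' := D.filter (fun δ => (GG Γ A cls τ ρ F K δ).Nonempty) with hD'
  have h0 : ∑ δ ∈ D', a δ = ∑ δ ∈ D, a δ := by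
    refine Finset.sum_filter_of_ne (fun δ _ hne0 => ?_)
    by_contra hemp
    rw [Finset.not_nonempty_iff_eq_empty] at hemp
    apply hne0
    simp only [ha, hemp, card_empty, Nat.cast_zero, zero_mul]
  rw [← h0]
  set P := F.powerset.erase F with hP
  have hmaps : ∀ δ ∈ D', pat K F δ ∈ P := by
    intro δ hδ
    have h1 := (Finset.mem_filter.1 (Finset.mem_filter.1 hδ).1).2
    refine Finset.mem_erase.2 ⟨h1, Finset.mem_powerset.2 ?_⟩
    intro f hf
    exact (mem_pat.1 hf).1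
  rw [← Finset.sum_fiberwise_of_maps_to hmaps]
  have hE : ∀ E ∈ P, ∑ δ ∈ D'.filter (fun δ => pat K F δ = E), a δ
      ≤ N * ((Fintype.card Γ : ℝ) * (L * q) ^ F.card *
          ((∏ f ∈ E, c f) * ∏ f ∈ F \ E, (1 - c f))) := by
    intro E hE
    obtain ⟨hEne, hEsub⟩ := Finset.mem_erase.1 hE
    have hEF : E ⊆ F := Finset.mem_powerset.1 hEsub
    have hssub : E ⊂ F := Finset.ssubset_iff_subset_ne.2 ⟨hEF, hEne⟩
    set w := (F \ E).card with hw
    set b : ℝ := (N * (q ^ w * ∏ f ∈ F \ E, ra A cls ρ K L (τ f))) *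
      (Real.exp 1 ^ w * ∏ f ∈ E, c f) with hb
    have hb0 : 0 ≤ b := by
      have hr : 0 ≤ ∏ f ∈ F \ E, ra A cls ρ K L (τ f) := by
        refine Finset.prod_nonneg (fun f _ => ?_)
        unfold ra
        have := hc1 f
        have h2 : 0 ≤ 1 - ci A cls ρ K (τ f) := by
          simpa [hcdef] using sub_nonneg.2 this
        positivity
      have hr2 : 0 ≤ ∏ f ∈ E, c f := Finset.prod_nonneg (fun f _ => hc0 f)
      have := Real.exp_pos 1
      rw [hb]
      positivity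
    have hval : ∀ δ ∈ D'.filter (fun δ => pat K F δ = E), a δ ≤ b := by
      intro δ hδ
      have h1 := Finset.mem_filter.1 hδ
      have h2 := Finset.mem_filter.1 h1.1
      have hpat := h1.2
      have h3 := hcon δ (Finset.mem_filter.1 h2.1).2 h2.2
      rw [hpat] at h3
      simp only [ha]
      unfold VV
      rw [hpat]
      exact mul_le_mul_of_nonneg_right h3 (mul_nonneg (pow_nonneg (Real.exp_pos 1).le _)
        (Finset.prod_nonneg (fun f _ => hc0 f)))
    have hcount : (((D'.filter (fun δ => pat K F δ = E)).card : ℕ) : ℝ)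
        ≤ ((Omt Γ A cls τ E).card : ℝ) := by
      norm_cast
      refine Finset.card_le_card_of_injOn (fun δ => γ0 * δ) ?_ ?_
      · intro δ hδ
        have h1 := Finset.mem_filter.1 (Finset.mem_coe.1 hδ)
        have h2 := Finset.mem_filter.1 h1.1
        have h3 := rel_mem (F := F) (τ := τ) hγ0 h2.2
        rw [h1.2] at h3
        exact Finset.mem_coe.2 h3
      · intro x _ y _ hxy
        exact mul_left_cancel hxy
    have hew : F.card = E.card + w := by
      rw [hw, add_comm]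
      exact (Finset.card_sdiff_add_card_eq_card hEF).symm
    have hu : (L / Real.exp 1) ^ w * Real.exp 1 ^ w = L ^ w := by
      rw [← mul_pow, div_mul_cancel₀ _ (Real.exp_pos 1).ne']
    have hprod : ∏ f ∈ F \ E, ra A cls ρ K L (τ f)
        = (∏ f ∈ F \ E, (1 - c f)) * (L / Real.exp 1) ^ w := by
      have : ∀ f ∈ F \ E, ra A cls ρ K L (τ f) = (1 - c f) * (L / Real.exp 1) := by
        intro f _
        unfold ra
        simp only [hcdef]
        ring
      rw [Finset.prod_congr rfl this, Finset.prod_mul_distrib, Finset.prod_const]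
    calc ∑ δ ∈ D'.filter (fun δ => pat K F δ = E), a δ
        ≤ ((D'.filter (fun δ => pat K F δ = E)).card : ℝ) * b := by
          have := Finset.sum_le_card_nsmul _ _ _ hval
          rwa [nsmul_eq_mul] at this
      _ ≤ ((Fintype.card Γ : ℝ) * (L * q) ^ E.card) * b :=
          mul_le_mul_of_nonneg_right (hcount.trans (IH E hssub)) hb0
      _ = N * (Fintype.card Γ : ℝ) * (L * q) ^ E.card * q ^ w * (∏ f ∈ F \ E, (1 - c f))
            * (∏ f ∈ E, c f) * ((L / Real.exp 1) ^ w * Real.exp 1 ^ w) := by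
          rw [hb, hprod]
          ring
      _ = _ := by
          rw [hu, hew, pow_add (L * q) E.card w, mul_pow L q w]
          ring
  have hsum1 : ∑ E ∈ P, ((∏ f ∈ E, c f) * ∏ f ∈ F \ E, (1 - c f)) = 1 - ∏ f ∈ F, c f := by
    have h1 := Finset.prod_add c (fun f => 1 - c f) F
    have h2 : ∏ f ∈ F, (c f + (1 - c f)) = 1 := by
      refine Finset.prod_eq_one (fun f _ => ?_)
      ring
    rw [h2] at h1
    rw [hP, Finset.sum_erase_eq_sub (Finset.mem_powerset_self F), ← h1]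
    simp
  calc ∑ E ∈ P, ∑ δ ∈ D'.filter (fun δ => pat K F δ = E), a δ
      ≤ ∑ E ∈ P, N * ((Fintype.card Γ : ℝ) * (L * q) ^ F.card *
          ((∏ f ∈ E, c f) * ∏ f ∈ F \ E, (1 - c f))) := Finset.sum_le_sum hE
    _ = N * ((Fintype.card Γ : ℝ) * (L * q) ^ F.card *
          ∑ E ∈ P, ((∏ f ∈ E, c f) * ∏ f ∈ F \ E, (1 - c f))) := by
        rw [← Finset.mul_sum, ← Finset.mul_sum]
    _ = _ := by rw [hsum1]

lemma step_typed {A : Finset X} {cls τ ρ : X → ι} {F K : Finset X} {q L : ℝ}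
    (hc : ClsOK Γ A cls) (hq : 0 < q) (hL : 0 < L)
    (IH : ∀ E : Finset X, E ⊂ F →
      ((Omt Γ A cls τ E).card : ℝ) ≤ (Fintype.card Γ : ℝ) * (L * q) ^ E.card)
    (hbig : (Fintype.card Γ : ℝ) * (L * q) ^ F.card < ((Omt Γ A cls τ F).card : ℝ))
    (hne : (Omt Γ A cls ρ K).Nonempty) {f0 : X} (hf0 : f0 ∈ F)
    (hlt : tt ρ K (τ f0) < (OO A cls (τ f0)).card) :
    ∃ δ : Γ, pat K F δ ≠ F ∧ (GG Γ A cls τ ρ F K δ).Nonempty ∧
      ((Omt Γ A cls ρ K).card : ℝ) *
        (q ^ (F \ pat K F δ).card * ∏ f ∈ F \ pat K F δ, ra A cls ρ K L (τ f))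
        ≤ ((GG Γ A cls τ ρ F K δ).card : ℝ) := by
  classical
  by_contra hcon
  simp only [not_exists, not_and, not_le] at hcon
  have hcon' : ∀ δ : Γ, pat K F δ ≠ F → (GG Γ A cls τ ρ F K δ).Nonempty →
      ((GG Γ A cls τ ρ F K δ).card : ℝ) ≤ ((Omt Γ A cls ρ K).card : ℝ) *
        (q ^ (F \ pat K F δ).card * ∏ f ∈ F \ pat K F δ, ra A cls ρ K L (τ f)) :=
    fun δ h1 h2 => (hcon δ h1 h2).le
  have hG0 : (0 : ℝ) ≤ (Fintype.card Γ : ℝ) * (L * q) ^ F.card := by positivity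
  have hΦ : (Omt Γ A cls τ F).Nonempty := by
    by_contra hemp
    rw [Finset.not_nonempty_iff_eq_empty] at hemp
    rw [hemp] at hbig
    simp only [card_empty, Nat.cast_zero] at hbig
    linarith
  have h1 := lower_bound (ρ := ρ) (K := K) hc hΦ
  have h2 := upper_bound hq hL IH hne hcon'
  have hZ : ∏ f ∈ F, ci A cls ρ K (τ f) < 1 := by
    have h3 : ci A cls ρ K (τ f0) < 1 := by
      unfold ci
      have hs : (0 : ℝ) < ((OO A cls (τ f0)).card : ℝ) := by
        exact_mod_cast OO_pos hΦ hf0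
      rw [div_lt_one hs]
      exact_mod_cast hlt
    rw [← Finset.mul_prod_erase F _ hf0]
    have h4 : ∏ f ∈ F.erase f0, ci A cls ρ K (τ f) ≤ 1 :=
      Finset.prod_le_one (fun f _ => ci_nonneg _ _ _ _ _) (fun f _ => ci_le_one hne _)
    have h5 := ci_nonneg A cls ρ K (τ f0)
    nlinarith
  have hN : (0 : ℝ) < ((Omt Γ A cls ρ K).card : ℝ) := by exact_mod_cast Finset.card_pos.2 hne
  have hX : 0 < (1 - ∏ f ∈ F, ci A cls ρ K (τ f)) * ((Omt Γ A cls ρ K).card : ℝ) :=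
    mul_pos (by linarith) hN
  have h3 := mul_lt_mul_of_pos_left hbig hX
  have h4 := h1.trans h2
  nlinarith

end Vale.Agent.Lib.P034
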