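import Vale.Agent.Lib.P034.T3

open Finset
open scoped Pointwise

namespace Vale.Agent.Lib.P034

variable {X : Type} [Fintype X] [DecidableEq X]
variable {Γ : Type} [Group Γ] [Fintype Γ] [MulAction Γ X]
variable {ι : Type} [DecidableEq ι]

/-- The potential of a class of size `s` of which `t` points are used. -/
noncomputable def Pot (L : ℝ) (s t : ℕ) : ℝ :=
  ∏ j ∈ range t, (((s : ℝ) - j) * (L / (Real.exp 1 * s)))

lemma Pot_nonneg {L : ℝ} (hL : 0 ≤ L) {s t : ℕ} (h : t ≤ s) : 0 ≤ Pot L s t := by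
  unfold Pot
  refine Finset.prod_nonneg (fun j hj => mul_nonneg ?_ ?_)
  · have : (j : ℝ) ≤ s := by
      exact_mod_cast (Finset.mem_range.1 hj).le.trans h
    linarith
  · have := Real.exp_pos 1
    positivity

lemma Pot_add {L : ℝ} (hL : 0 ≤ L) {s t w : ℕ} (h : t + w ≤ s) :
    Pot L s (t + w) ≤ Pot L s t * ((1 - (t : ℝ) / s) * L / Real.exp 1) ^ w := by
  have hPot := Pot_nonneg hL (s := s) (t := t) (by omega)
  unfold Pot at hPot ⊢
  rw [Finset.prod_range_add]
  refine mul_le_mul_of_nonneg_left ?_ hPot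
  have hexp := Real.exp_pos 1
  calc ∏ j ∈ range w, (((s : ℝ) - ((t + j : ℕ) : ℝ)) * (L / (Real.exp 1 * s)))
      ≤ ∏ _j ∈ range w, ((1 - (t : ℝ) / s) * L / Real.exp 1) := by
        refine Finset.prod_le_prod (fun j hj => ?_) (fun j hj => ?_)
        · have hj' := Finset.mem_range.1 hj
          have : ((t + j : ℕ) : ℝ) ≤ s := by
            exact_mod_cast (by omega : t + j ≤ s)
          refine mul_nonneg (by linarith) (by positivity)
        · have hj' := Finset.mem_range.1 hj
          have hs : 0 < s := by omega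
          have hs' : (0 : ℝ) < s := by exact_mod_cast hs
          have h1 : (1 - (t : ℝ) / s) * L / Real.exp 1 = ((s : ℝ) - t) * (L / (Real.exp 1 * s)) := by
            field_simp
          rw [h1]
          refine mul_le_mul_of_nonneg_right ?_ (by positivity)
          push_cast
          have : (0 : ℝ) ≤ j := by positivity
          linarith
    _ = _ := by
        rw [Finset.prod_const, Finset.card_range]

lemma two_pow_le_Pot {L : ℝ} (hL : 16 ≤ L) (s : ℕ) : (2 : ℝ) ^ s ≤ Pot L s s := by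
  rcases Nat.eq_zero_or_pos s with rfl | hs
  · simp [Pot]
  have hs' : (0 : ℝ) < s := by exact_mod_cast hs
  have hexp := Real.exp_pos 1
  have h1 : ∏ j ∈ range s, ((s : ℝ) - j) = (s.factorial : ℝ) := by
    rw [← Nat.descFactorial_self, Nat.descFactorial_eq_prod_range, Nat.cast_prod]
    refine Finset.prod_congr rfl (fun j hj => ?_)
    rw [Nat.cast_sub (Finset.mem_range.1 hj).le]
  have h2 : Pot L s s = (s.factorial : ℝ) * (L / (Real.exp 1 * s)) ^ s := by
    unfold Pot
    rw [Finset.prod_mul_distrib, h1, Finset.prod_const, Finset.card_range]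
  have hfac : (0 : ℝ) < (s.factorial : ℝ) := by exact_mod_cast Nat.factorial_pos s
  have h3 : (s : ℝ) ^ s ≤ Real.exp 1 ^ s * (s.factorial : ℝ) := by
    have h4 := Real.pow_div_factorial_le_exp (s : ℝ) hs'.le s
    rw [div_le_iff₀ hfac] at h4
    have h5 : Real.exp (s : ℝ) = Real.exp 1 ^ s := by
      rw [← Real.exp_nat_mul, mul_one]
    rwa [h5] at h4
  have h6 : 2 * Real.exp 1 * Real.exp 1 ≤ L := by
    have h7 := Real.exp_one_lt_d9
    nlinarith
  rw [h2, div_pow, mul_pow, mul_div_assoc', le_div_iff₀ (by positivity)]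
  have h8 : (2 * Real.exp 1 * Real.exp 1) ^ s ≤ L ^ s := pow_le_pow_left₀ (by positivity) h6 s
  calc (2 : ℝ) ^ s * (Real.exp 1 ^ s * (s : ℝ) ^ s)
      ≤ (2 : ℝ) ^ s * (Real.exp 1 ^ s * (Real.exp 1 ^ s * (s.factorial : ℝ))) := by
        gcongr
    _ = (s.factorial : ℝ) * (2 * Real.exp 1 * Real.exp 1) ^ s := by
        rw [mul_pow, mul_pow]
        ring
    _ ≤ _ := by
        gcongr

/-- The updated class assignment. -/
noncomputable def up (ρ τ : X → ι) (K : Finset X) (δ : Γ) : X → ι :=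
  fun y => if y ∈ K then ρ y else τ (δ⁻¹ • y)

lemma GG_sub {A : Finset X} {cls τ ρ : X → ι} {F K : Finset X} {δ : Γ} :
    GG Γ A cls τ ρ F K δ ⊆ Omt Γ A cls (up ρ τ K δ) (K ∪ δ • F) := by
  intro γ hγ
  have h1 := mem_GG.1 hγ
  refine mem_Omt.2 (fun y hy => ?_)
  unfold up
  by_cases hyK : y ∈ K
  · rw [if_pos hyK]
    exact mem_Omt.1 h1.1 y hyK
  · rw [if_neg hyK]
    have hy2 : y ∈ δ • F := (Finset.mem_union.1 hy).resolve_left hyK
    obtain ⟨f, hf, rfl⟩ := Finset.mem_smul_finset.1 hy2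
    have h2 := mem_Omt.1 h1.2 f hf
    rw [mul_smul] at h2
    rw [inv_smul_smul]
    exact h2

lemma card_union_typed (K F : Finset X) (δ : Γ) :
    (K ∪ δ • F).card = K.card + (F \ pat K F δ).card := by
  have h1 := card_union_pat K F δ
  have h2 : pat K F δ ⊆ F := by
    intro f hf
    exact (mem_pat.1 hf).1
  have h3 := Finset.card_sdiff_add_card_eq_card h2
  omega

lemma tt_up (ρ τ : X → ι) (K F : Finset X) (δ : Γ) (i : ι) :
    tt (up ρ τ K δ) (K ∪ δ • F) i = tt ρ K i + ((F \ pat K F δ).filter (fun f => τ f = i)).card := by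
  classical
  unfold tt
  have h1 : (K ∪ δ • F).filter (fun y => up ρ τ K δ y = i)
      = K.filter (fun y => ρ y = i) ∪ δ • ((F \ pat K F δ).filter (fun f => τ f = i)) := by
    ext y
    simp only [Finset.mem_filter, Finset.mem_union]
    rw [← Finset.inv_smul_mem_iff, ← Finset.inv_smul_mem_iff]
    simp only [Finset.mem_filter, Finset.mem_sdiff, mem_pat, smul_inv_smul, up]
    by_cases hy : y ∈ K
    · simp [hy]
    · simp [hy]
  have h2 : Disjoint (K.filter (fun y => ρ y = i))
      (δ • ((F \ pat K F δ).filter (fun f => τ f = i))) := by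
    rw [Finset.disjoint_left]
    intro y hy hy2
    have h3 := (Finset.mem_filter.1 hy).1
    rw [← Finset.inv_smul_mem_iff] at hy2
    simp only [Finset.mem_filter, Finset.mem_sdiff, mem_pat, smul_inv_smul] at hy2
    exact hy2.1.2 ⟨hy2.1.1, h3⟩
  rw [h1, Finset.card_union_of_disjoint h2, Finset.card_smul_finset]

/-- The invariant of the chain. -/
def InvT (Γ : Type) [Group Γ] [Fintype Γ] [MulAction Γ X] (A : Finset X) (cls : X → ι)
    (I : Finset ι) (L q : ℝ) (ρ : X → ι) (K : Finset X) : Prop :=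
  (Omt Γ A cls ρ K).Nonempty ∧ (∀ y ∈ K, ρ y ∈ I) ∧
    (Fintype.card Γ : ℝ) * q ^ K.card * ∏ i ∈ I, Pot L (OO A cls i).card (tt ρ K i)
      ≤ ((Omt Γ A cls ρ K).card : ℝ)

lemma inv_step {A : Finset X} {cls τ ρ : X → ι} {F K : Finset X} {q L : ℝ} (hq : 0 < q)
    (hL : 0 ≤ L) (hInv : InvT Γ A cls (F.image τ) L q ρ K) {δ : Γ}
    (hrel : (GG Γ A cls τ ρ F K δ).Nonempty)
    (hgain : ((Omt Γ A cls ρ K).card : ℝ) *
        (q ^ (F \ pat K F δ).card * ∏ f ∈ F \ pat K F δ, ra A cls ρ K L (τ f))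
        ≤ ((GG Γ A cls τ ρ F K δ).card : ℝ)) :
    InvT Γ A cls (F.image τ) L q (up ρ τ K δ) (K ∪ δ • F) := by
  classical
  obtain ⟨hne, hmem, hpot⟩ := hInv
  have hne' : (Omt Γ A cls (up ρ τ K δ) (K ∪ δ • F)).Nonempty := hrel.mono GG_sub
  refine ⟨hne', ?_, ?_⟩
  · intro y hy
    unfold up
    by_cases hyK : y ∈ K
    · rw [if_pos hyK]
      exact hmem y hyK
    · rw [if_neg hyK]
      have hy2 : y ∈ δ • F := (Finset.mem_union.1 hy).resolve_left hyK
      rw [← Finset.inv_smul_mem_iff] at hy2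
      exact Finset.mem_image_of_mem _ hy2
  · set W : ι → ℕ := fun i => ((F \ pat K F δ).filter (fun f => τ f = i)).card with hW
    set I := F.image τ with hI
    have hmaps : ∀ f ∈ F \ pat K F δ, τ f ∈ I := by
      intro f hf
      exact Finset.mem_image_of_mem _ (Finset.mem_sdiff.1 hf).1
    have hra : ∏ f ∈ F \ pat K F δ, ra A cls ρ K L (τ f) = ∏ i ∈ I, ra A cls ρ K L i ^ W i := by
      rw [← Finset.prod_fiberwise_of_maps_to hmaps]
      refine Finset.prod_congr rfl (fun i _ => ?_)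
      have : ∀ f ∈ (F \ pat K F δ).filter (fun f => τ f = i),
          ra A cls ρ K L (τ f) = ra A cls ρ K L i := by
        intro f hf
        rw [(Finset.mem_filter.1 hf).2]
      rw [Finset.prod_congr rfl this, Finset.prod_const]
    have hra0 : 0 ≤ ∏ f ∈ F \ pat K F δ, ra A cls ρ K L (τ f) := by
      refine Finset.prod_nonneg (fun f _ => ?_)
      unfold ra
      have h1 := ci_le_one hne (τ f)
      have h2 : 0 ≤ 1 - ci A cls ρ K (τ f) := by linarith
      have := Real.exp_pos 1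
      positivity
    have hP : ∏ i ∈ I, Pot L (OO A cls i).card (tt (up ρ τ K δ) (K ∪ δ • F) i)
        ≤ (∏ i ∈ I, Pot L (OO A cls i).card (tt ρ K i)) * ∏ f ∈ F \ pat K F δ, ra A cls ρ K L (τ f) := by
      rw [hra, ← Finset.prod_mul_distrib]
      refine Finset.prod_le_prod (fun i _ => ?_) (fun i _ => ?_)
      · exact Pot_nonneg hL (tt_le hne' i)
      · have h1 := tt_le hne' i
        rw [tt_up] at h1 ⊢
        exact Pot_add hL h1
    have hG : (0 : ℝ) ≤ (Fintype.card Γ : ℝ) := by positivity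
    have hqw : 0 < q ^ (F \ pat K F δ).card := pow_pos hq _
    rw [card_union_typed, pow_add]
    calc (Fintype.card Γ : ℝ) * (q ^ K.card * q ^ (F \ pat K F δ).card)
          * ∏ i ∈ I, Pot L (OO A cls i).card (tt (up ρ τ K δ) (K ∪ δ • F) i)
        ≤ (Fintype.card Γ : ℝ) * (q ^ K.card * q ^ (F \ pat K F δ).card)
          * ((∏ i ∈ I, Pot L (OO A cls i).card (tt ρ K i)) *
              ∏ f ∈ F \ pat K F δ, ra A cls ρ K L (τ f)) :=
          mul_le_mul_of_nonneg_left hP (by positivity)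
      _ = ((Fintype.card Γ : ℝ) * q ^ K.card * ∏ i ∈ I, Pot L (OO A cls i).card (tt ρ K i)) *
            (q ^ (F \ pat K F δ).card * ∏ f ∈ F \ pat K F δ, ra A cls ρ K L (τ f)) := by ring
      _ ≤ ((Omt Γ A cls ρ K).card : ℝ) *
            (q ^ (F \ pat K F δ).card * ∏ f ∈ F \ pat K F δ, ra A cls ρ K L (τ f)) :=
          mul_le_mul_of_nonneg_right hpot (by positivity)
      _ ≤ ((GG Γ A cls τ ρ F K δ).card : ℝ) := hgain
      _ ≤ _ := by
          have h9 : (GG Γ A cls τ ρ F K δ).card ≤ (Omt Γ A cls (up ρ τ K δ) (K ∪ δ • F)).card :=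
            Finset.card_le_card GG_sub
          exact_mod_cast h9

lemma fib_card (K : Finset X) (γ1 : Γ) :
    ((univ : Finset Γ).filter (fun γ => γ • K = γ1 • K)).card
      = ((univ : Finset Γ).filter (fun γ => γ • K = K)).card := by
  refine Finset.card_bij' (fun γ _ => γ1⁻¹ * γ) (fun γ _ => γ1 * γ) ?_ ?_ ?_ ?_
  · intro γ hγ
    have := (mem_filter.1 hγ).2
    refine mem_filter.2 ⟨mem_univ _, ?_⟩
    rw [mul_smul, this, inv_smul_smul]
  · intro γ hγ
    have := (mem_filter.1 hγ).2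
    refine mem_filter.2 ⟨mem_univ _, ?_⟩
    rw [mul_smul, this]
  · intro γ _
    simp
  · intro γ _
    simp

lemma orbit_stab (K : Finset X) :
    ((univ : Finset Γ).image (fun γ => γ • K)).card * ((univ : Finset Γ).filter (fun γ => γ • K = K)).card
      = Fintype.card Γ := by
  classical
  have h1 : (univ : Finset Γ).card = ∑ b ∈ (univ : Finset Γ).image (fun γ => γ • K),
      ((univ : Finset Γ).filter (fun γ => γ • K = b)).card :=
    Finset.card_eq_sum_card_image _ _
  have h2 : ∀ b ∈ (univ : Finset Γ).image (fun γ => γ • K),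
      ((univ : Finset Γ).filter (fun γ => γ • K = b)).card
        = ((univ : Finset Γ).filter (fun γ => γ • K = K)).card := by
    intro b hb
    obtain ⟨γ1, _, rfl⟩ := mem_image.1 hb
    exact fib_card K γ1
  rw [Finset.sum_congr rfl h2, Finset.sum_const, smul_eq_mul, Finset.card_univ] at h1
  exact h1.symm

lemma saturated_false {A : Finset X} {cls ρ : X → ι} {I : Finset ι} {K : Finset X} {q L : ℝ}
    (hq : 0 < q) (hL : 16 ≤ L) (hInv : InvT Γ A cls I L q ρ K)
    (hsat : ∀ i ∈ I, tt ρ K i = (OO A cls i).card) {i0 : ι} (hi0 : i0 ∈ I)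
    (hpos : 0 < (OO A cls i0).card)
    (Hyp : 1 / 2 < (((univ : Finset Γ).image (fun γ => γ • K)).card : ℝ) * q ^ K.card) : False := by
  classical
  obtain ⟨hne, hmem, hpot⟩ := hInv
  obtain ⟨γ0, hγ0⟩ := id hne
  -- all translates coincide
  set AI := A.filter (fun x => cls x ∈ I) with hAI
  have hcard : K.card = AI.card := by
    have h1 : K.card = ∑ i ∈ I, tt ρ K i := Finset.card_eq_sum_card_fiberwise hmem
    have h2 : AI.card = ∑ i ∈ I, (OO A cls i).card := by
      have hm : ∀ x ∈ AI, cls x ∈ I := fun x hx => (Finset.mem_filter.1 hx).2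
      rw [Finset.card_eq_sum_card_fiberwise hm]
      refine Finset.sum_congr rfl (fun i hi => ?_)
      congr 1
      ext x
      simp only [Finset.mem_filter, mem_OO, hAI]
      constructor
      · rintro ⟨⟨h3, _⟩, h4⟩
        exact ⟨h3, h4⟩
      · rintro ⟨h3, h4⟩
        exact ⟨⟨h3, by rw [h4]; exact hi⟩, h4⟩
    rw [h1, h2]
    exact Finset.sum_congr rfl hsat
  have hall : ∀ γ ∈ Omt Γ A cls ρ K, γ • K = AI := by
    intro γ hγ
    refine Finset.eq_of_subset_of_card_le ?_ ?_
    · intro z hz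
      obtain ⟨y, hy, rfl⟩ := Finset.mem_smul_finset.1 hz
      have h1 := mem_Omt.1 hγ y hy
      refine Finset.mem_filter.2 ⟨h1.1, ?_⟩
      rw [h1.2]
      exact hmem y hy
    · rw [Finset.card_smul_finset, hcard]
  set S := (univ : Finset Γ).filter (fun γ => γ • K = K) with hS
  have hOmS : (Omt Γ A cls ρ K).card ≤ S.card := by
    rw [hS, ← fib_card K γ0]
    refine Finset.card_le_card (fun γ hγ => ?_)
    refine Finset.mem_filter.2 ⟨mem_univ _, ?_⟩
    rw [hall γ hγ, hall γ0 hγ0]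
  have hSpos : (0 : ℝ) < (S.card : ℝ) := by
    have : S.Nonempty := ⟨1, Finset.mem_filter.2 ⟨mem_univ _, one_smul _ _⟩⟩
    exact_mod_cast Finset.card_pos.2 this
  have hO := orbit_stab (Γ := Γ) K
  have hO' : (((univ : Finset Γ).image (fun γ => γ • K)).card : ℝ) * (S.card : ℝ)
      = (Fintype.card Γ : ℝ) := by
    exact_mod_cast hO
  have hone : ∀ i ∈ I, (1 : ℝ) ≤ Pot L (OO A cls i).card (tt ρ K i) := by
    intro i hi
    rw [hsat i hi]
    exact (one_le_pow₀ (by norm_num)).trans (two_pow_le_Pot hL _)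
  have htwo : (2 : ℝ) ≤ ∏ i ∈ I, Pot L (OO A cls i).card (tt ρ K i) := by
    rw [← Finset.mul_prod_erase I _ hi0]
    have h1 : (2 : ℝ) ≤ Pot L (OO A cls i0).card (tt ρ K i0) := by
      rw [hsat i0 hi0]
      refine le_trans ?_ (two_pow_le_Pot hL _)
      calc (2 : ℝ) = 2 ^ 1 := by norm_num
        _ ≤ _ := pow_le_pow_right₀ (by norm_num) hpos
    have h2 : (1 : ℝ) ≤ ∏ i ∈ I.erase i0, Pot L (OO A cls i).card (tt ρ K i) := by
      calc (1 : ℝ) = ∏ _i ∈ I.erase i0, (1 : ℝ) := by simp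
        _ ≤ _ := Finset.prod_le_prod (fun _ _ => zero_le_one)
            (fun i hi => hone i (Finset.mem_of_mem_erase hi))
    nlinarith
  have hOmS' : ((Omt Γ A cls ρ K).card : ℝ) ≤ (S.card : ℝ) := by exact_mod_cast hOmS
  have h5 : (S.card : ℝ) * ((((univ : Finset Γ).image (fun γ => γ • K)).card : ℝ) * q ^ K.card * 2)
      ≤ (S.card : ℝ) * 1 := by
    calc (S.card : ℝ) * ((((univ : Finset Γ).image (fun γ => γ • K)).card : ℝ) * q ^ K.card * 2)
        = (Fintype.card Γ : ℝ) * q ^ K.card * 2 := by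
          rw [← hO']
          ring
      _ ≤ (Fintype.card Γ : ℝ) * q ^ K.card * ∏ i ∈ I, Pot L (OO A cls i).card (tt ρ K i) :=
          mul_le_mul_of_nonneg_left htwo (by positivity)
      _ ≤ (S.card : ℝ) := hpot.trans hOmS'
      _ = _ := (mul_one _).symm
  have h6 := le_of_mul_le_mul_left h5 hSpos
  linarith

lemma chain_typed {A : Finset X} {cls τ : X → ι} {F : Finset X} {q L : ℝ}
    (hc : ClsOK Γ A cls) (hq : 0 < q) (hL : 16 ≤ L)
    (IH : ∀ E : Finset X, E ⊂ F →
      ((Omt Γ A cls τ E).card : ℝ) ≤ (Fintype.card Γ : ℝ) * (L * q) ^ E.card)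
    (hbig : (Fintype.card Γ : ℝ) * (L * q) ^ F.card < ((Omt Γ A cls τ F).card : ℝ))
    (hf0 : F.Nonempty)
    (Hyp : ∀ K : Finset X, (Om Γ A K).Nonempty →
      1 / 2 < (((univ : Finset Γ).image (fun γ => γ • K)).card : ℝ) * q ^ K.card) :
    ∀ (n : ℕ) (ρ : X → ι) (K : Finset X), A.card - K.card = n →
      InvT Γ A cls (F.image τ) L q ρ K → False := by
  classical
  have hL0 : (0 : ℝ) < L := by linarith
  intro n
  induction' n using Nat.strong_induction_on with n ih
  intro ρ K hn hInv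
  have hcardle : ∀ {ρ' : X → ι} {K' : Finset X}, (Omt Γ A cls ρ' K').Nonempty → K'.card ≤ A.card := by
    intro ρ' K' hne
    obtain ⟨γ, hγ⟩ := hne
    have : γ • K' ⊆ A := by
      intro z hz
      obtain ⟨y, hy, rfl⟩ := Finset.mem_smul_finset.1 hz
      exact (mem_Omt.1 hγ y hy).1
    have h2 := Finset.card_le_card this
    rwa [Finset.card_smul_finset] at h2
  have hΦ : (Omt Γ A cls τ F).Nonempty := by
    by_contra hemp
    rw [Finset.not_nonempty_iff_eq_empty] at hemp
    rw [hemp] at hbig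
    simp only [card_empty, Nat.cast_zero] at hbig
    have hG0 : (0 : ℝ) ≤ (Fintype.card Γ : ℝ) * (L * q) ^ F.card := by positivity
    linarith
  by_cases hex : ∃ f ∈ F, tt ρ K (τ f) < (OO A cls (τ f)).card
  · obtain ⟨f0, hf0', hlt⟩ := hex
    obtain ⟨δ, hpat, hrel, hgain⟩ := step_typed hc hq hL0 IH hbig hInv.1 hf0' hlt
    have hInv' := inv_step hq hL0.le hInv hrel hgain
    have h1 := hcardle hInv'.1
    have h2 := card_union_typed K F δ
    have h3 : 0 < (F \ pat K F δ).card := by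
      rw [Finset.card_pos]
      by_contra hemp
      rw [Finset.not_nonempty_iff_eq_empty, Finset.sdiff_eq_empty_iff_subset] at hemp
      apply hpat
      refine Finset.Subset.antisymm ?_ hemp
      intro f hf
      exact (mem_pat.1 hf).1
    exact ih (A.card - (K ∪ δ • F).card) (by omega) _ _ rfl hInv'
  · simp only [not_exists, not_and, not_lt] at hex
    obtain ⟨f1, hf1⟩ := hf0
    refine saturated_false hq hL hInv ?_ (Finset.mem_image_of_mem τ hf1) (OO_pos hΦ hf1) ?_
    · intro i hi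
      obtain ⟨f, hf, rfl⟩ := Finset.mem_image.1 hi
      exact le_antisymm (tt_le hInv.1 _) (hex f hf)
    · obtain ⟨γ, hγ⟩ := hInv.1
      refine Hyp K ⟨γ, mem_Om.2 ?_⟩
      intro z hz
      obtain ⟨y, hy, rfl⟩ := Finset.mem_smul_finset.1 hz
      exact (mem_Omt.1 hγ y hy).1

lemma Omt_empty (A : Finset X) (cls ρ : X → ι) : Omt Γ A cls ρ ∅ = univ := by
  classical
  ext γ
  simp [mem_Omt]

lemma typed_bound {A : Finset X} {cls τ : X → ι} {q L : ℝ}
    (hc : ClsOK Γ A cls) (hq : 0 < q) (hL : 16 ≤ L)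
    (Hyp : ∀ K : Finset X, (Om Γ A K).Nonempty →
      1 / 2 < (((univ : Finset Γ).image (fun γ => γ • K)).card : ℝ) * q ^ K.card) :
    ∀ F : Finset X, ((Omt Γ A cls τ F).card : ℝ) ≤ (Fintype.card Γ : ℝ) * (L * q) ^ F.card := by
  classical
  intro F
  induction' hn : F.card using Nat.strong_induction_on with n ih generalizing F
  rw [← hn]
  by_contra hbig
  rw [not_le] at hbig
  have IH : ∀ E : Finset X, E ⊂ F →
      ((Omt Γ A cls τ E).card : ℝ) ≤ (Fintype.card Γ : ℝ) * (L * q) ^ E.card := by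
    intro E hE
    exact ih E.card (by rw [← hn]; exact Finset.card_lt_card hE) E rfl
  have hf0 : F.Nonempty := by
    by_contra hemp
    rw [Finset.not_nonempty_iff_eq_empty] at hemp
    subst hemp
    rw [Omt_empty] at hbig
    simp at hbig
  refine chain_typed hc hq hL IH hbig hf0 Hyp _ τ ∅ rfl ?_
  refine ⟨?_, ?_, ?_⟩
  · rw [Omt_empty]
    exact ⟨1, mem_univ _⟩
  · intro y hy
    simp at hy
  · rw [Omt_empty]
    have : ∀ i ∈ F.image τ, Pot L (OO A cls i).card (tt τ ∅ i) = 1 := by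
      intro i _
      simp [Pot, tt]
    rw [Finset.prod_congr rfl this]
    simp

end Vale.Agent.Lib.P034
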