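import Vale.Agent.Lib.P034.T4

open Finset
open scoped Pointwise

namespace Vale.Agent.Lib.P034

variable {X : Type} [Fintype X] [DecidableEq X]
variable {Γ : Type} [Group Γ] [Fintype Γ] [MulAction Γ X]

open Classical in
/-- The orbit of `x` under the setwise stabilizer of `A`, intersected with `A`. -/
noncomputable def orb (Γ : Type) [Group Γ] [Fintype Γ] [MulAction Γ X] (A : Finset X) (x : X) :
    Finset X :=
  A.filter (fun y => ∃ s : Γ, s • A = A ∧ s • x = y)

open Classical in
lemma mem_orb {A : Finset X} {x y : X} :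
    y ∈ orb Γ A x ↔ y ∈ A ∧ ∃ s : Γ, s • A = A ∧ s • x = y := by
  simp [orb]

/-- The number of orbits of the setwise stabilizer of `A` in `Γ` on the points of `A`. -/
noncomputable def orbitCount (Γ : Type) [Group Γ] [Fintype Γ] [MulAction Γ X] (A : Finset X) : ℕ :=
  (A.image (orb Γ A)).card

lemma inv_stab {A : Finset X} {s : Γ} (hs : s • A = A) : s⁻¹ • A = A := by
  conv_lhs => rw [← hs]
  exact inv_smul_smul s A

lemma clsOK_orb (A : Finset X) : ClsOK Γ A (orb Γ A) := by
  classical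
  refine ⟨?_, ?_⟩
  · intro s hs x _
    ext y
    simp only [mem_orb]
    refine and_congr_right (fun _ => ?_)
    constructor
    · rintro ⟨t, ht, h⟩
      refine ⟨t * s, ?_, ?_⟩
      · rw [mul_smul, hs, ht]
      · rw [mul_smul, h]
    · rintro ⟨t, ht, h⟩
      refine ⟨t * s⁻¹, ?_, ?_⟩
      · rw [mul_smul, inv_stab hs, ht]
      · rw [mul_smul, inv_smul_smul, h]
  · intro x _ y hy hxy
    have h1 : y ∈ orb Γ A y := mem_orb.2 ⟨hy, 1, one_smul _ _, one_smul _ _⟩
    rw [← hxy] at h1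
    exact (mem_orb.1 h1).2

/-- The bound for untyped embeddings: the types contribute at most `orbitCount ^ |F|`. -/
lemma untyped_bound {A : Finset X} {q L : ℝ} (hq : 0 < q) (hL : 16 ≤ L)
    (Hyp : ∀ K : Finset X, (Om Γ A K).Nonempty →
      1 / 2 < (((univ : Finset Γ).image (fun γ => γ • K)).card : ℝ) * q ^ K.card)
    (F : Finset X) :
    ((Om Γ A F).card : ℝ) ≤ (Fintype.card Γ : ℝ) * ((orbitCount Γ A : ℝ) * (L * q)) ^ F.card := by
  classical
  set R := A.image (orb Γ A) with hR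
  set T := Finset.pi F (fun _ => R) with hT
  let g : Γ → (∀ a ∈ F, Finset X) := fun γ a _ => orb Γ A (γ • a)
  have hg : ∀ γ ∈ Om Γ A F, g γ ∈ T := by
    intro γ hγ
    refine Finset.mem_pi.2 (fun a ha => Finset.mem_image_of_mem _ ?_)
    exact mem_Om.1 hγ (Finset.smul_mem_smul_finset ha)
  have h1 := Finset.card_eq_sum_card_fiberwise hg
  have h2 : ∀ σ ∈ T, (((Om Γ A F).filter (fun γ => g γ = σ)).card : ℝ)
      ≤ (Fintype.card Γ : ℝ) * (L * q) ^ F.card := by
    intro σ _
    set τ : X → Finset X := fun y => if h : y ∈ F then σ y h else ∅ with hτ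
    have hsub : (Om Γ A F).filter (fun γ => g γ = σ) ⊆ Omt Γ A (orb Γ A) τ F := by
      intro γ hγ
      obtain ⟨h3, h4⟩ := Finset.mem_filter.1 hγ
      refine mem_Omt.2 (fun y hy => ⟨mem_Om.1 h3 (Finset.smul_mem_smul_finset hy), ?_⟩)
      simp only [hτ, dif_pos hy]
      rw [← h4]
    have h5 : (((Om Γ A F).filter (fun γ => g γ = σ)).card : ℝ)
        ≤ ((Omt Γ A (orb Γ A) τ F).card : ℝ) := by
      exact_mod_cast Finset.card_le_card hsub
    exact h5.trans (typed_bound (clsOK_orb A) hq hL Hyp F)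
  have hTcard : (T.card : ℝ) = (orbitCount Γ A : ℝ) ^ F.card := by
    rw [hT, Finset.card_pi]
    simp [orbitCount, hR]
  have h3 : ((Om Γ A F).card : ℝ) = ∑ σ ∈ T, (((Om Γ A F).filter (fun γ => g γ = σ)).card : ℝ) := by
    rw [h1]
    push_cast
    rfl
  rw [h3]
  calc ∑ σ ∈ T, (((Om Γ A F).filter (fun γ => g γ = σ)).card : ℝ)
      ≤ ∑ _σ ∈ T, (Fintype.card Γ : ℝ) * (L * q) ^ F.card := Finset.sum_le_sum h2
    _ = (T.card : ℝ) * ((Fintype.card Γ : ℝ) * (L * q) ^ F.card) := by
        rw [Finset.sum_const, nsmul_eq_mul]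
    _ = _ := by
        rw [hTcard, mul_pow]
        ring

lemma orbitCount_pos {A : Finset X} (hA : A.Nonempty) : 0 < orbitCount Γ A := by
  unfold orbitCount
  exact Finset.card_pos.2 (hA.image _)

/-- The constant `16 r`. -/
noncomputable def KO (Γ : Type) [Group Γ] [Fintype Γ] [MulAction Γ X] (A : Finset X) : ℝ :=
  16 * (orbitCount Γ A : ℝ)

lemma KO_pos {A : Finset X} (hA : A.Nonempty) : 0 < KO Γ A := by
  unfold KO
  have : (0 : ℝ) < (orbitCount Γ A : ℝ) := by exact_mod_cast orbitCount_pos hA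
  positivity

lemma one_le_KO {A : Finset X} (hA : A.Nonempty) : 1 ≤ KO Γ A := by
  unfold KO
  have : (1 : ℝ) ≤ (orbitCount Γ A : ℝ) := by
    exact_mod_cast orbitCount_pos (Γ := Γ) hA
  linarith

/-- A fractional cover of cost at most `1/2` at `p` forces an integral cover of cost at most `1/2`
at `p / (16 r)`. -/
theorem small_of_frac_orb {A : Finset X} (hA : A.Nonempty) {p : ℝ}
    (hp : 0 ≤ p) (hf : IsFracSmall (gen Γ A) p) : IsSmall (gen Γ A) (p / KO Γ A) := by
  classical
  by_contra hns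
  set q := p / KO Γ A with hqdef
  have hq0 : 0 ≤ q := div_nonneg hp (KO_pos hA).le
  have hG : 0 < Fintype.card Γ := Fintype.card_pos
  have hG' : (0 : ℝ) < (Fintype.card Γ : ℝ) := by exact_mod_cast hG
  have Hyp : ∀ K : Finset X, (Om Γ A K).Nonempty →
      1 / 2 < (((univ : Finset Γ).image (fun γ => γ • K)).card : ℝ) * q ^ K.card := by
    intro K hK
    obtain ⟨γ0, hγ0⟩ := hK
    by_contra hle
    apply hns
    refine ⟨(univ : Finset Γ).image (fun γ => γ • K), ?_, ?_⟩
    · intro H hH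
      unfold gen at hH
      obtain ⟨γ, hγ⟩ := (mem_filter.1 hH).2
      refine ⟨(γ * γ0) • K, mem_image.2 ⟨_, mem_univ _, rfl⟩, ?_⟩
      rw [mul_smul]
      exact (Finset.smul_finset_subset_smul_finset (mem_Om.1 hγ0)).trans hγ
    · have h1 : ∀ S ∈ (univ : Finset Γ).image (fun γ => γ • K), q ^ S.card = q ^ K.card := by
        intro S hS
        obtain ⟨γ, _, rfl⟩ := mem_image.1 hS
        rw [Finset.card_smul_finset]
      rw [Finset.sum_congr rfl h1, Finset.sum_const, nsmul_eq_mul]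
      exact not_lt.1 hle
  have hq : 0 < q := by
    rcases hq0.lt_or_eq with hlt | heq
    · exact hlt
    · exfalso
      have h1 := Hyp A ⟨1, mem_Om.2 (by simp)⟩
      rw [← heq, zero_pow (Finset.card_pos.2 hA).ne'] at h1
      norm_num at h1
  have hmain' : ∀ S : Finset X, ((Om Γ A S).card : ℝ) ≤ (Fintype.card Γ : ℝ) * p ^ S.card := by
    intro S
    have h1 := untyped_bound (L := 16) hq le_rfl Hyp S
    have h2 : (orbitCount Γ A : ℝ) * (16 * q) = p := by
      rw [hqdef]
      have hr : (orbitCount Γ A : ℝ) ≠ 0 := by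
        exact_mod_cast (orbitCount_pos (Γ := Γ) hA).ne'
      unfold KO
      field_simp
    rwa [h2] at h1
  obtain ⟨g, hg, hcov, hcost⟩ := hf
  have hone : ∀ γ : Γ, (1 : ℝ) ≤ ∑ S : Finset X, if S ⊆ γ • A then g S else 0 := by
    intro γ
    have h1 := hcov _ (mem_gen_smul A γ)
    have h2 : (γ • A).powerset = (univ : Finset (Finset X)).filter (fun S => S ⊆ γ • A) := by
      ext S
      simp
    rw [h2, Finset.sum_filter] at h1
    exact h1
  have hsum : (Fintype.card Γ : ℝ) ≤ ∑ γ : Γ, ∑ S : Finset X, if S ⊆ γ • A then g S else 0 := by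
    calc (Fintype.card Γ : ℝ) = ∑ _γ : Γ, (1 : ℝ) := by simp
      _ ≤ _ := Finset.sum_le_sum (fun γ _ => hone γ)
  rw [Finset.sum_comm] at hsum
  have hS : ∀ S : Finset X, (∑ γ : Γ, if S ⊆ γ • A then g S else 0)
      ≤ g S * ((Fintype.card Γ : ℝ) * p ^ S.card) := by
    intro S
    have h1 : (∑ γ : Γ, if S ⊆ γ • A then g S else 0)
        = ((univ.filter (fun γ : Γ => S ⊆ γ • A)).card : ℝ) * g S := by
      rw [← Finset.sum_filter, Finset.sum_const, nsmul_eq_mul]
    have h2 : (univ.filter (fun γ : Γ => S ⊆ γ • A)).card ≤ (Om Γ A S).card := by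
      refine Finset.card_le_card_of_injOn (fun γ => γ⁻¹) ?_ ?_
      · intro γ hγ
        have hγ' : S ⊆ γ • A := (mem_filter.1 (Finset.mem_coe.1 hγ)).2
        refine Finset.mem_coe.2 (mem_Om.2 ?_)
        have h3 := Finset.smul_finset_subset_smul_finset (a := γ⁻¹) hγ'
        rwa [inv_smul_smul] at h3
      · intro a _ b _ hab
        exact inv_injective hab
    have h3 : ((univ.filter (fun γ : Γ => S ⊆ γ • A)).card : ℝ) ≤ (Om Γ A S).card := by
      exact_mod_cast h2
    rw [h1, mul_comm]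
    exact mul_le_mul_of_nonneg_left (h3.trans (hmain' S)) (hg S).1
  have hfin : (Fintype.card Γ : ℝ) ≤ (Fintype.card Γ : ℝ) * ∑ S : Finset X, g S * p ^ S.card := by
    refine hsum.trans ?_
    rw [Finset.mul_sum]
    refine Finset.sum_le_sum (fun S _ => ?_)
    refine (hS S).trans (le_of_eq ?_)
    ring
  have : (Fintype.card Γ : ℝ) * ∑ S : Finset X, g S * p ^ S.card ≤ (Fintype.card Γ : ℝ) * (1 / 2) :=
    mul_le_mul_of_nonneg_left hcost hG'.le
  linarith

/-- The threshold comparison. -/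
theorem qFrac_le_orb {A : Finset X} (hA : A.Nonempty) :
    qFrac (gen Γ A) ≤ KO Γ A * qInt (gen Γ A) := by
  classical
  have hbdd : BddAbove {p : ℝ | 0 ≤ p ∧ p ≤ 1 ∧ IsSmall (gen Γ A) p} :=
    ⟨1, fun p hp => hp.2.1⟩
  have hnn : 0 ≤ qInt (gen Γ A) := Real.sSup_nonneg (fun p hp => hp.1)
  refine Real.sSup_le ?_ (mul_nonneg (KO_pos hA).le hnn)
  rintro p ⟨hp0, hp1, hfs⟩
  have h1 := small_of_frac_orb hA hp0 hfs
  have h2 : p / KO Γ A ≤ qInt (gen Γ A) := by
    refine le_csSup hbdd ⟨div_nonneg hp0 (KO_pos hA).le, ?_, h1⟩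
    exact (div_le_self hp0 (one_le_KO hA)).trans hp1
  rw [div_le_iff₀ (KO_pos hA)] at h2
  linarith

/-- Flag-transitivity means one orbit. -/
lemma orbitCount_eq_one {A : Finset X} (hA : A.Nonempty) (h : FlagTransitive Γ A) :
    orbitCount Γ A = 1 := by
  classical
  unfold orbitCount
  obtain ⟨x0, hx0⟩ := hA
  have : A.image (orb Γ A) = {orb Γ A x0} := by
    ext O
    simp only [Finset.mem_image, Finset.mem_singleton]
    constructor
    · rintro ⟨x, hx, rfl⟩
      ext y
      simp only [mem_orb]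
      refine and_congr_right (fun hy => ?_)
      constructor
      · intro _
        exact h x0 hx0 y hy
      · intro _
        exact h x hx y hy
    · rintro rfl
      exact ⟨x0, hx0, rfl⟩
  rw [this, Finset.card_singleton]

/-- Large orbits are few. -/
lemma orbitCount_le_of_large {A : Finset X} {Lam : ℕ} (hA : A.Nonempty) (h : OrbitsLarge Γ A Lam) :
    orbitCount Γ A ≤ Lam := by
  classical
  have hA' : 0 < A.card := Finset.card_pos.2 hA
  -- the orbit of `x` is the fibre of `orb` through `x`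
  have hfib : ∀ O ∈ A.image (orb Γ A), A.card ≤ Lam * (A.filter (fun x => orb Γ A x = O)).card := by
    intro O hO
    obtain ⟨x, hx, rfl⟩ := Finset.mem_image.1 hO
    refine (h x hx).trans (Nat.mul_le_mul_left _ (Finset.card_le_card ?_))
    intro y hy
    obtain ⟨hyA, s, hs, hsy⟩ := Finset.mem_filter.1 hy
    refine Finset.mem_filter.2 ⟨hyA, ?_⟩
    rw [← hsy]
    exact (clsOK_orb A).inv s hs x hx
  have hm : ∀ x ∈ A, orb Γ A x ∈ A.image (orb Γ A) := fun x hx => Finset.mem_image_of_mem _ hx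
  have hsum := Finset.card_eq_sum_card_fiberwise hm
  have h3 : (A.image (orb Γ A)).card * A.card ≤ Lam * A.card := by
    calc (A.image (orb Γ A)).card * A.card
        = ∑ _O ∈ A.image (orb Γ A), A.card := by rw [Finset.sum_const, smul_eq_mul]
      _ ≤ ∑ O ∈ A.image (orb Γ A), Lam * (A.filter (fun x => orb Γ A x = O)).card :=
          Finset.sum_le_sum hfib
      _ = Lam * ∑ O ∈ A.image (orb Γ A), (A.filter (fun x => orb Γ A x = O)).card := by
          rw [Finset.mul_sum]
      _ = Lam * A.card := by rw [← hsum]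
  exact Nat.le_of_mul_le_mul_right h3 hA'

end Vale.Agent.Lib.P034
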