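import Vale.Agent.Lib.P034.T5

open Finset
open scoped Pointwise

namespace Vale.Agent.Lib.P034

variable {X : Type} [Fintype X] [DecidableEq X]
variable {Γ : Type} [Group Γ] [Fintype Γ] [MulAction Γ X]

open Classical in
/-- The stabilizer orbits on `A` met by the `Γ`-orbit of `x`. -/
noncomputable def orbsAt (Γ : Type) [Group Γ] [Fintype Γ] [MulAction Γ X] (A : Finset X) (x : X) :
    Finset (Finset X) :=
  (A.filter (fun y => ∃ γ : Γ, γ • x = y)).image (orb Γ A)

/-- The largest number of orbits of the setwise stabilizer of `A` on `A` that lie in a single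
`Γ`-orbit of `X`. -/
noncomputable def localOrbitCount (Γ : Type) [Group Γ] [Fintype Γ] [MulAction Γ X]
    (A : Finset X) : ℕ :=
  (univ : Finset X).sup (fun x => (orbsAt Γ A x).card)

lemma localOrbitCount_pos {A : Finset X} (hA : A.Nonempty) : 0 < localOrbitCount Γ A := by
  classical
  obtain ⟨x, hx⟩ := hA
  have h1 : (orbsAt Γ A x).card ≤ localOrbitCount Γ A :=
    Finset.le_sup (f := fun x => (orbsAt Γ A x).card) (mem_univ x)
  have h2 : 0 < (orbsAt Γ A x).card := by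
    refine Finset.card_pos.2 ⟨orb Γ A x, Finset.mem_image.2 ⟨x, ?_, rfl⟩⟩
    exact Finset.mem_filter.2 ⟨hx, 1, one_smul _ _⟩
  omega

/-- The bound for untyped embeddings with the local count. -/
lemma untyped_local {A : Finset X} {q L : ℝ} (hq : 0 < q) (hL : 16 ≤ L)
    (Hyp : ∀ K : Finset X, (Om Γ A K).Nonempty →
      1 / 2 < (((univ : Finset Γ).image (fun γ => γ • K)).card : ℝ) * q ^ K.card)
    (F : Finset X) :
    ((Om Γ A F).card : ℝ)
      ≤ (Fintype.card Γ : ℝ) * ((localOrbitCount Γ A : ℝ) * (L * q)) ^ F.card := by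
  classical
  set T := Finset.pi F (fun a => orbsAt Γ A a) with hT
  let g : Γ → (∀ a ∈ F, Finset X) := fun γ a _ => orb Γ A (γ • a)
  have hg : ∀ γ ∈ Om Γ A F, g γ ∈ T := by
    intro γ hγ
    refine Finset.mem_pi.2 (fun a ha => Finset.mem_image.2 ⟨γ • a, ?_, rfl⟩)
    exact Finset.mem_filter.2 ⟨mem_Om.1 hγ (Finset.smul_mem_smul_finset ha), γ, rfl⟩
  have h1 := Finset.card_eq_sum_card_fiberwise hg
  have h2 : ∀ σ ∈ T, (((Om Γ A F).filter (fun γ => g γ = σ)).card : ℝ)
      ≤ (Fintype.card Γ : ℝ) * (L * q) ^ F.card := by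
    intro σ _
    set τ : X → Finset X := fun y => if h : y ∈ F then σ y h else ∅ with hτ
    have hsub : (Om Γ A F).filter (fun γ => g γ = σ) ⊆ Omt Γ A (orb Γ A) τ F := by
      intro γ hγ
      obtain ⟨h3, h4⟩ := Finset.mem_filter.1 hγ
      refine mem_Omt.2 (fun y hy => ⟨mem_Om.1 h3 (Finset.smul_mem_smul_finset hy), ?_⟩)
      simp only [hτ, dif_pos hy]
      rw [← h4]
    have h5 : (((Om Γ A F).filter (fun γ => g γ = σ)).card : ℝ)
        ≤ ((Omt Γ A (orb Γ A) τ F).card : ℝ) := by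
      exact_mod_cast Finset.card_le_card hsub
    exact h5.trans (typed_bound (clsOK_orb A) hq hL Hyp F)
  have hTcard : T.card ≤ localOrbitCount Γ A ^ F.card := by
    rw [hT, Finset.card_pi]
    calc ∏ a ∈ F, (orbsAt Γ A a).card ≤ ∏ _a ∈ F, localOrbitCount Γ A :=
          Finset.prod_le_prod (fun _ _ => Nat.zero_le _)
            (fun a _ => Finset.le_sup (f := fun x => (orbsAt Γ A x).card) (mem_univ a))
      _ = _ := by rw [Finset.prod_const]
  have hTcard' : (T.card : ℝ) ≤ (localOrbitCount Γ A : ℝ) ^ F.card := by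
    exact_mod_cast hTcard
  have hbase : 0 ≤ (L * q) ^ F.card := by
    have : 0 < L := by linarith
    positivity
  have h3 : ((Om Γ A F).card : ℝ) = ∑ σ ∈ T, (((Om Γ A F).filter (fun γ => g γ = σ)).card : ℝ) := by
    rw [h1]
    push_cast
    rfl
  rw [h3]
  calc ∑ σ ∈ T, (((Om Γ A F).filter (fun γ => g γ = σ)).card : ℝ)
      ≤ ∑ _σ ∈ T, (Fintype.card Γ : ℝ) * (L * q) ^ F.card := Finset.sum_le_sum h2
    _ = (T.card : ℝ) * ((Fintype.card Γ : ℝ) * (L * q) ^ F.card) := by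
        rw [Finset.sum_const, nsmul_eq_mul]
    _ ≤ (localOrbitCount Γ A : ℝ) ^ F.card * ((Fintype.card Γ : ℝ) * (L * q) ^ F.card) :=
        mul_le_mul_of_nonneg_right hTcard' (by positivity)
    _ = _ := by
        rw [mul_pow]
        ring

/-- The constant `16 r` with the local count. -/
noncomputable def KL (Γ : Type) [Group Γ] [Fintype Γ] [MulAction Γ X] (A : Finset X) : ℝ :=
  16 * (localOrbitCount Γ A : ℝ)

lemma KL_pos {A : Finset X} (hA : A.Nonempty) : 0 < KL Γ A := by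
  unfold KL
  have : (0 : ℝ) < (localOrbitCount Γ A : ℝ) := by exact_mod_cast localOrbitCount_pos hA
  positivity

/-- A fractional cover of cost at most `1/2` at `p` forces an integral cover of cost at most `1/2`
at `p / (16 r)`, `r` the local orbit count. -/
theorem small_of_frac_loc {A : Finset X} (hA : A.Nonempty) {p : ℝ}
    (hp : 0 ≤ p) (hf : IsFracSmall (gen Γ A) p) : IsSmall (gen Γ A) (p / KL Γ A) := by
  classical
  by_contra hns
  set q := p / KL Γ A with hqdef
  have hq0 : 0 ≤ q := div_nonneg hp (KL_pos hA).le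
  have hG : 0 < Fintype.card Γ := Fintype.card_pos
  have hG' : (0 : ℝ) < (Fintype.card Γ : ℝ) := by exact_mod_cast hG
  have Hyp : ∀ K : Finset X, (Om Γ A K).Nonempty →
      1 / 2 < (((univ : Finset Γ).image (fun γ => γ • K)).card : ℝ) * q ^ K.card := by
    intro K hK
    obtain ⟨γ0, hγ0⟩ := hK
    by_contra hle
    apply hns
    refine ⟨(univ : Finset Γ).image (fun γ => γ • K), ?_, ?_⟩
    · intro H hH
      unfold gen at hH
      obtain ⟨γ, hγ⟩ := (mem_filter.1 hH).2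
      refine ⟨(γ * γ0) • K, mem_image.2 ⟨_, mem_univ _, rfl⟩, ?_⟩
      rw [mul_smul]
      exact (Finset.smul_finset_subset_smul_finset (mem_Om.1 hγ0)).trans hγ
    · have h1 : ∀ S ∈ (univ : Finset Γ).image (fun γ => γ • K), q ^ S.card = q ^ K.card := by
        intro S hS
        obtain ⟨γ, _, rfl⟩ := mem_image.1 hS
        rw [Finset.card_smul_finset]
      rw [Finset.sum_congr rfl h1, Finset.sum_const, nsmul_eq_mul]
      exact not_lt.1 hle
  have hq : 0 < q := by
    rcases hq0.lt_or_eq with hlt | heq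
    · exact hlt
    · exfalso
      have h1 := Hyp A ⟨1, mem_Om.2 (by simp)⟩
      rw [← heq, zero_pow (Finset.card_pos.2 hA).ne'] at h1
      norm_num at h1
  have hmain' : ∀ S : Finset X, ((Om Γ A S).card : ℝ) ≤ (Fintype.card Γ : ℝ) * p ^ S.card := by
    intro S
    have h1 := untyped_local (L := 16) hq le_rfl Hyp S
    have h2 : (localOrbitCount Γ A : ℝ) * (16 * q) = p := by
      rw [hqdef]
      have hr : (localOrbitCount Γ A : ℝ) ≠ 0 := by
        exact_mod_cast (localOrbitCount_pos (Γ := Γ) hA).ne'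
      unfold KL
      field_simp
    rwa [h2] at h1
  obtain ⟨g, hg, hcov, hcost⟩ := hf
  have hone : ∀ γ : Γ, (1 : ℝ) ≤ ∑ S : Finset X, if S ⊆ γ • A then g S else 0 := by
    intro γ
    have h1 := hcov _ (mem_gen_smul A γ)
    have h2 : (γ • A).powerset = (univ : Finset (Finset X)).filter (fun S => S ⊆ γ • A) := by
      ext S
      simp
    rw [h2, Finset.sum_filter] at h1
    exact h1
  have hsum : (Fintype.card Γ : ℝ) ≤ ∑ γ : Γ, ∑ S : Finset X, if S ⊆ γ • A then g S else 0 := by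
    calc (Fintype.card Γ : ℝ) = ∑ _γ : Γ, (1 : ℝ) := by simp
      _ ≤ _ := Finset.sum_le_sum (fun γ _ => hone γ)
  rw [Finset.sum_comm] at hsum
  have hS : ∀ S : Finset X, (∑ γ : Γ, if S ⊆ γ • A then g S else 0)
      ≤ g S * ((Fintype.card Γ : ℝ) * p ^ S.card) := by
    intro S
    have h1 : (∑ γ : Γ, if S ⊆ γ • A then g S else 0)
        = ((univ.filter (fun γ : Γ => S ⊆ γ • A)).card : ℝ) * g S := by
      rw [← Finset.sum_filter, Finset.sum_const, nsmul_eq_mul]
    have h2 : (univ.filter (fun γ : Γ => S ⊆ γ • A)).card ≤ (Om Γ A S).card := by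
      refine Finset.card_le_card_of_injOn (fun γ => γ⁻¹) ?_ ?_
      · intro γ hγ
        have hγ' : S ⊆ γ • A := (mem_filter.1 (Finset.mem_coe.1 hγ)).2
        refine Finset.mem_coe.2 (mem_Om.2 ?_)
        have h3 := Finset.smul_finset_subset_smul_finset (a := γ⁻¹) hγ'
        rwa [inv_smul_smul] at h3
      · intro a _ b _ hab
        exact inv_injective hab
    have h3 : ((univ.filter (fun γ : Γ => S ⊆ γ • A)).card : ℝ) ≤ (Om Γ A S).card := by
      exact_mod_cast h2
    rw [h1, mul_comm]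
    exact mul_le_mul_of_nonneg_left (h3.trans (hmain' S)) (hg S).1
  have hfin : (Fintype.card Γ : ℝ) ≤ (Fintype.card Γ : ℝ) * ∑ S : Finset X, g S * p ^ S.card := by
    refine hsum.trans ?_
    rw [Finset.mul_sum]
    refine Finset.sum_le_sum (fun S _ => ?_)
    refine (hS S).trans (le_of_eq ?_)
    ring
  have : (Fintype.card Γ : ℝ) * ∑ S : Finset X, g S * p ^ S.card ≤ (Fintype.card Γ : ℝ) * (1 / 2) :=
    mul_le_mul_of_nonneg_left hcost hG'.le
  linarith

open Classical in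
/-- The increasing family of all sets containing a translate of a member of `𝒜`. -/
noncomputable def genM (Γ : Type) [Group Γ] [Fintype Γ] [MulAction Γ X]
    (𝒜 : Finset (Finset X)) : Finset (Finset X) :=
  univ.filter (fun H => ∃ A ∈ 𝒜, ∃ γ : Γ, γ • A ⊆ H)

lemma mem_genM {𝒜 : Finset (Finset X)} {H : Finset X} :
    H ∈ genM Γ 𝒜 ↔ ∃ A ∈ 𝒜, ∃ γ : Γ, γ • A ⊆ H := by
  classical
  simp [genM]

lemma mem_gen_iff {A H : Finset X} : H ∈ gen Γ A ↔ ∃ γ : Γ, γ • A ⊆ H := by
  classical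
  simp [gen]

/-- The total number of flag classes of the generators. -/
noncomputable def flagCount (Γ : Type) [Group Γ] [Fintype Γ] [MulAction Γ X]
    (𝒜 : Finset (Finset X)) : ℕ :=
  ∑ A ∈ 𝒜, localOrbitCount Γ A

lemma sum_biUnion_le_nonneg {α β : Type} [DecidableEq β] (s : Finset α) (t : α → Finset β)
    (f : β → ℝ) (hf : ∀ b, 0 ≤ f b) : ∑ b ∈ s.biUnion t, f b ≤ ∑ a ∈ s, ∑ b ∈ t a, f b := by
  classical
  induction s using Finset.induction_on with
  | empty => simp
  | insert a s ha ih =>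
    rw [Finset.biUnion_insert, Finset.sum_insert ha]
    have h1 := Finset.sum_union_inter (s₁ := t a) (s₂ := s.biUnion t) (f := f)
    have h2 : 0 ≤ ∑ b ∈ t a ∩ s.biUnion t, f b := Finset.sum_nonneg (fun b _ => hf b)
    linarith

/-- Several generators: the constants add up. -/
theorem small_of_frac_multi {𝒜 : Finset (Finset X)} (hne : 𝒜.Nonempty)
    (h𝒜 : ∀ A ∈ 𝒜, A.Nonempty) {p : ℝ} (hp : 0 ≤ p) (hf : IsFracSmall (genM Γ 𝒜) p) :
    IsSmall (genM Γ 𝒜) (p / (16 * (flagCount Γ 𝒜 : ℝ))) := by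
  classical
  set R : ℝ := (flagCount Γ 𝒜 : ℝ) with hR
  have hrpos : ∀ A ∈ 𝒜, (0 : ℝ) < (localOrbitCount Γ A : ℝ) := by
    intro A hA
    exact_mod_cast localOrbitCount_pos (h𝒜 A hA)
  have hRsum : R = ∑ A ∈ 𝒜, (localOrbitCount Γ A : ℝ) := by
    rw [hR]
    unfold flagCount
    push_cast
    rfl
  have hRpos : 0 < R := by
    rw [hRsum]
    exact Finset.sum_pos hrpos hne
  have hex : ∀ A : Finset X, ∃ G : Finset (Finset X), A ∈ 𝒜 →
      Covers G (gen Γ A) ∧ ∑ S ∈ G, (p / KL Γ A) ^ S.card ≤ 1 / 2 := by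
    intro A
    by_cases hA : A ∈ 𝒜
    · have hfA : IsFracSmall (gen Γ A) p := by
        obtain ⟨g, h1, h2, h3⟩ := hf
        refine ⟨g, h1, ?_, h3⟩
        intro H hH
        refine h2 H (mem_genM.2 ⟨A, hA, mem_gen_iff.1 hH⟩)
      obtain ⟨G, hG1, hG2⟩ := small_of_frac_loc (h𝒜 A hA) hp hfA
      exact ⟨G, fun _ => ⟨hG1, hG2⟩⟩
    · exact ⟨∅, fun h => absurd h hA⟩
  choose G hG using hex
  refine ⟨𝒜.biUnion G, ?_, ?_⟩
  · intro H hH
    obtain ⟨A, hA, hγ⟩ := mem_genM.1 hH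
    obtain ⟨S, hS, hSH⟩ := (hG A hA).1 H (mem_gen_iff.2 hγ)
    exact ⟨S, Finset.mem_biUnion.2 ⟨A, hA, hS⟩, hSH⟩
  · set p' := p / (16 * R) with hp'
    have hp'0 : 0 ≤ p' := by positivity
    have hA : ∀ A ∈ 𝒜, ∑ S ∈ G A, p' ^ S.card ≤ ((localOrbitCount Γ A : ℝ) / R) * (1 / 2) := by
      intro A hA
      have hr := hrpos A hA
      set w : ℝ := (localOrbitCount Γ A : ℝ) / R with hw
      have hw0 : 0 ≤ w := by positivity
      have hw1 : w ≤ 1 := by
        rw [hw, div_le_one hRpos, hRsum]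
        exact Finset.single_le_sum (f := fun B => (localOrbitCount Γ B : ℝ))
          (fun B _ => by positivity) hA
      have hpA : p' = (p / KL Γ A) * w := by
        rw [hp', hw]
        unfold KL
        field_simp
      have hpA0 : 0 ≤ p / KL Γ A := div_nonneg hp (KL_pos (h𝒜 A hA)).le
      have hterm : ∀ S ∈ G A, p' ^ S.card ≤ w * (p / KL Γ A) ^ S.card := by
        intro S hS
        have hSne : S.card ≠ 0 := by
          intro h0
          have h1 := (hG A hA).2
          have h2 : (p / KL Γ A) ^ S.card ≤ ∑ T ∈ G A, (p / KL Γ A) ^ T.card :=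
            Finset.single_le_sum (f := fun T : Finset X => (p / KL Γ A) ^ T.card)
              (fun T _ => by positivity) hS
          rw [h0, pow_zero] at h2
          linarith
        rw [hpA, mul_pow, mul_comm]
        refine mul_le_mul_of_nonneg_right ?_ (by positivity)
        calc w ^ S.card ≤ w ^ 1 := pow_le_pow_of_le_one hw0 hw1 (Nat.one_le_iff_ne_zero.2 hSne)
          _ = w := pow_one w
      calc ∑ S ∈ G A, p' ^ S.card ≤ ∑ S ∈ G A, w * (p / KL Γ A) ^ S.card :=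
            Finset.sum_le_sum hterm
        _ = w * ∑ S ∈ G A, (p / KL Γ A) ^ S.card := by rw [Finset.mul_sum]
        _ ≤ w * (1 / 2) := mul_le_mul_of_nonneg_left (hG A hA).2 hw0
    calc ∑ S ∈ 𝒜.biUnion G, p' ^ S.card
        ≤ ∑ A ∈ 𝒜, ∑ S ∈ G A, p' ^ S.card :=
          sum_biUnion_le_nonneg 𝒜 G (fun S : Finset X => p' ^ S.card) (fun S => by positivity)
      _ ≤ ∑ A ∈ 𝒜, ((localOrbitCount Γ A : ℝ) / R) * (1 / 2) := Finset.sum_le_sum hA
      _ = (∑ A ∈ 𝒜, (localOrbitCount Γ A : ℝ)) / R * (1 / 2) := by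
          rw [← Finset.sum_mul, Finset.sum_div]
      _ = 1 / 2 := by
          rw [← hRsum, div_self hRpos.ne', one_mul]

/-- The threshold comparison for several generators. -/
theorem qFrac_le_multi {𝒜 : Finset (Finset X)} (hne : 𝒜.Nonempty) (h𝒜 : ∀ A ∈ 𝒜, A.Nonempty) :
    qFrac (genM Γ 𝒜) ≤ 16 * (flagCount Γ 𝒜 : ℝ) * qInt (genM Γ 𝒜) := by
  classical
  have hrpos : ∀ A ∈ 𝒜, (0 : ℝ) < (localOrbitCount Γ A : ℝ) := by
    intro A hA
    exact_mod_cast localOrbitCount_pos (h𝒜 A hA)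
  have hcount : (1 : ℝ) ≤ (flagCount Γ 𝒜 : ℝ) := by
    obtain ⟨A0, hA0⟩ := hne
    have h1 : localOrbitCount Γ A0 ≤ flagCount Γ 𝒜 :=
      Finset.single_le_sum (f := fun B => localOrbitCount Γ B) (fun _ _ => Nat.zero_le _) hA0
    have h2 := localOrbitCount_pos (Γ := Γ) (h𝒜 A0 hA0)
    exact_mod_cast (by omega : 1 ≤ flagCount Γ 𝒜)
  set K : ℝ := 16 * (flagCount Γ 𝒜 : ℝ) with hK
  have hK1 : 1 ≤ K := by
    rw [hK]
    linarith
  have hK0 : 0 < K := by linarith
  have hbdd : BddAbove {p : ℝ | 0 ≤ p ∧ p ≤ 1 ∧ IsSmall (genM Γ 𝒜) p} :=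
    ⟨1, fun p hp => hp.2.1⟩
  have hnn : 0 ≤ qInt (genM Γ 𝒜) := Real.sSup_nonneg (fun p hp => hp.1)
  refine Real.sSup_le ?_ (mul_nonneg hK0.le hnn)
  rintro p ⟨hp0, hp1, hfs⟩
  have h1 := small_of_frac_multi hne h𝒜 hp0 hfs
  have h2 : p / K ≤ qInt (genM Γ 𝒜) := by
    refine le_csSup hbdd ⟨div_nonneg hp0 hK0.le, ?_, h1⟩
    exact (div_le_self hp0 hK1).trans hp1
  rw [div_le_iff₀ hK0] at h2
  linarith

end Vale.Agent.Lib.P034
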